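import Crest.Agent.R213.G.Defs

/-! Row 213, block G: composition, exponential, logarithm, inverse and primitive in `SF`. -/

set_option autoImplicit false
open Set Filter Topology
open scoped ContDiff ComplexConjugate

noncomputable section
namespace Crest.Agent.R213.G

open Crest.GeometryTopology.ProjKahler

/-- `mk (fun x => evr (evr x ξ) f)` (`ContDiffOn.comp`), `AlgHom` laws by `ext_evr`; chain rule by `evr_D_of` -/
theorem exists_comp {ξ : SF} (hξ : ∀ x ∈ I01, evr x ξ ∈ I01) : ∃ C : SF →ₐ[ℝ] SF,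
    (∀ f, ∀ x ∈ I01, evr x (C f) = evr (evr x ξ) f) ∧ ∀ f, D (C f) = C (D f) * D ξ := by
  have hs : ∀ f : SF, ContDiffOn ℝ ∞ (fun x => evr (evr x ξ) f) I01 := fun f =>
    (smooth_evr f).comp (smooth_evr ξ) hξ
  let c : SF → SF := fun f => mk _ (hs f)
  have hc : ∀ f, ∀ x ∈ I01, evr x (c f) = evr (evr x ξ) f := fun f x hx => evr_mk _ _ hx
  refine ⟨{ toFun := c
            map_one' := ext_evr fun x hx => by rw [hc _ x hx, map_one, map_one]
            map_mul' := fun f g => ext_evr fun x hx => by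
              rw [map_mul, hc _ x hx, hc _ x hx, hc _ x hx, map_mul]
            map_zero' := ext_evr fun x hx => by rw [hc _ x hx, map_zero, map_zero]
            map_add' := fun f g => ext_evr fun x hx => by
              rw [map_add, hc _ x hx, hc _ x hx, hc _ x hx, map_add]
            commutes' := fun r => ext_evr fun x hx => by
              rw [hc _ x hx, AlgHom.commutes, AlgHom.commutes] }, hc, fun f => ?_⟩
  refine ext_evr fun x hx => ?_
  change evr x (D (c f)) = evr x (c (D f) * D ξ)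
  rw [map_mul, hc _ x hx]
  have h := HasDerivWithinAt.comp (h₂ := fun y => evr y f) (h := fun y => evr y ξ) x
    (hasDeriv_evr f (hξ x hx)) (hasDeriv_evr ξ hx) hξ
  exact evr_D_of (hc f) hx h

theorem exists_exp (f : SF) : ∃ u : SF, (∀ x ∈ I01, evr x u = Real.exp (evr x f)) ∧ D u = u * D f := by
  have hc : ∀ x ∈ I01, evr x (mk _ (smooth_evr f).exp) = Real.exp (evr x f) := fun x hx =>
    evr_mk _ _ hx
  refine ⟨_, hc, ext_evr fun x hx => ?_⟩
  rw [map_mul, hc x hx]
  exact evr_D_of hc hx (hasDeriv_evr f hx).exp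

theorem exists_log {f : SF} (hf : ∀ x ∈ I01, 0 < evr x f) :
    ∃ u : SF, (∀ x ∈ I01, evr x u = Real.log (evr x f)) ∧ f * D u = D f := by
  have hc : ∀ x ∈ I01, evr x (mk _ ((smooth_evr f).log fun x hx => (hf x hx).ne')) =
      Real.log (evr x f) := fun x hx => evr_mk _ _ hx
  refine ⟨_, hc, ext_evr fun x hx => ?_⟩
  rw [map_mul, evr_D_of hc hx ((hasDeriv_evr f hx).log (hf x hx).ne'),
    mul_div_cancel₀ _ (hf x hx).ne']

theorem exists_inv {f : SF} (hf : ∀ x ∈ I01, evr x f ≠ 0) : ∃ u : SF, f * u = 1 := by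
  refine ⟨mk _ ((smooth_evr f).inv hf), ext_evr fun x hx => ?_⟩
  rw [map_mul, evr_mk _ _ hx, map_one]
  exact mul_inv_cancel₀ (hf x hx)

/-- `F x = ∫ y in 0..x, ext f y` has the derivative `ext f x` everywhere (`continuous_ext`,
`Continuous.deriv_integral`/`intervalIntegral.integral_hasDerivAt_right`); `contDiffOn_infty_iff_derivWithin uniq` -/
theorem exists_primX (f : SF) : ∃ F : SF, D F = f := by
  have hd : ∀ x, HasDerivAt (fun x => ∫ y in (0 : ℝ)..x, evr y f) (evr x f) x := fun x =>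
    ((continuous_ext (f : CC)).integral_hasStrictDerivAt 0 x).hasDerivAt
  have hs : ContDiffOn ℝ ∞ (fun x => ∫ y in (0 : ℝ)..x, evr y f) I01 :=
    (contDiffOn_infty_iff_derivWithin uniq).2
      ⟨fun x _ => (hd x).differentiableAt.differentiableWithinAt,
        (smooth_evr f).congr fun x hx => (hd x).hasDerivWithinAt.derivWithin (uniq x hx)⟩
  exact ⟨mk _ hs, ext_evr fun x hx =>
    evr_D_of (fun y hy => evr_mk _ hs hy) hx (hd x).hasDerivWithinAt⟩

/-- the Ricci potential divided by `x` -/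
def R1 (Γ : SF) : SF := -11 - (1 - X) * dl 1 Γ

/-- `dl_apply`, `Aop_apply`, `D_mul`; unfold `q`, `pp` (or evaluate with `ext_evr`) -/
theorem R1_eq (Γ : SF) : -(9 * R1 Γ + D (X * R1 Γ)) = 110 + Aop 0 Γ := by
  have h11 : D (11 : SF) = 0 := D.map_natCast 11
  have hp : pp 0 = 10 * (1 - X) - X := SF.ext' fun x => by
    simp [ev_pp, map_ofNat]
  have hD : D (R1 Γ) = dl 1 Γ - (1 - X) * D (dl 1 Γ) := by
    rw [R1, map_sub, map_neg, h11, D_mul, map_sub, D_X, Derivation.map_one_eq_zero]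
    ring
  rw [D_mul, D_X, hD, Aop_apply, dl_apply 0, hp, R1, q]
  ring

theorem evr_R1 (Γ : SF) {x : ℝ} (hx : x ∈ I01) : evr x (R1 Γ) =
    -11 - (1 - x) * (x * (1 - x) * evr x (D Γ) + (11 * (1 - x) - 2 * x) * evr x Γ) := by
  have hp : evr x (pp 1) = 11 * (1 - x) - 2 * x := by
    rw [evr_of_mem hx, ev_pp]; norm_num
  rw [R1, dl_apply]
  simp only [map_sub, map_neg, map_mul, map_add, map_one, map_ofNat, evr_X hx, evr_q hx, hp]

theorem evr_D_a (Γ : SF) {x : ℝ} (hx : x ∈ I01) :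
    evr x (D (1 - q * Γ)) = -((1 - 2 * x) * evr x Γ + x * (1 - x) * evr x (D Γ)) := by
  have hD : D (1 - q * Γ) = -((1 - 2 * X) * Γ + q * D Γ) := by
    rw [map_sub, Derivation.map_one_eq_zero, D_mul, q, D_mul, map_sub, D_X,
      Derivation.map_one_eq_zero]
    ring
  rw [hD]
  simp only [map_sub, map_neg, map_mul, map_add, map_one, map_ofNat, evr_X hx, evr_q hx]

theorem evr_Aop_zero (Γ : SF) : evr 0 (Aop 0 Γ) = 110 * ev 0 Γ := by
  have h0 : evr 0 = ev 0 := AlgHom.ext fun f => evr_coe 0 f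
  rw [h0, Aop_apply, dl_apply, dl_apply]
  simp [ev_pp]
  ring

end Crest.Agent.R213.G
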