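import Crest.Agent.R213.Iface

/-!
Row 213, block G (owner helper15): definitions.  FROZEN.

`evr x f` is the value of `f : SF` at the real number `x` (an algebra homomorphism in `f`: `map_add`, `map_mul`, …).
Moment coordinate `x`, Fubini–Study coordinate `σ = Th x w`, `w = g'(x)`, `g'' = Γ / (1 - qΓ)`, `∂ₜ g = -𝒜₀ Γ`;
`ξ` is the inverse `σ ↦ x`, the relative potential is `H σ = En x (g' x) (g x)`.
Charts: `σ = sg c e w = 1 - |c + ∑ eₐ wₐ|² / (1 + |w|²)`; `(c, e) = (1, 0)` is the affine chart,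
`(0, Pi.single k 1)` the chart `k`.
Files: `Wirt` (complex Hessian), `Mat` (matrices), `Scal` (positivity, scalar curvature), `Alg`, `Prof` (fixed time),
`Joint`, `Pot` (joint smoothness, the potential `g`), `Inv` (inverse function), `Fam`, `Main`.
-/

set_option autoImplicit false
open Set Filter Topology
open scoped ContDiff ComplexConjugate

noncomputable section
namespace Crest.Agent.R213.G

open Crest.GeometryTopology.ProjKahler

/-- evaluation at a real number -/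
def evr (x : ℝ) : SF →ₐ[ℝ] ℝ := ev (projIcc 0 1 zero_le_one x)

theorem evr_def (x : ℝ) (f : SF) : evr x f = ext (f : CC) x := rfl
theorem evr_of_mem {x : ℝ} (hx : x ∈ I01) (f : SF) : evr x f = ev ⟨x, hx⟩ f := ext_eq_ev f hx
@[simp] theorem evr_coe (x : I01) (f : SF) : evr x f = ev x f := ext_coe _ x
theorem evr_smul (x c : ℝ) (f : SF) : evr x (c • f) = c * evr x f := rfl
theorem evr_X {x : ℝ} (hx : x ∈ I01) : evr x X = x := by rw [evr_of_mem hx, ev_X]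
theorem evr_q {x : ℝ} (hx : x ∈ I01) : evr x q = x * (1 - x) := by rw [evr_of_mem hx, ev_q]
theorem evr_mk (F : ℝ → ℝ) (h : ContDiffOn ℝ ∞ F I01) {x : ℝ} (hx : x ∈ I01) : evr x (mk F h) = F x := by
  rw [evr_of_mem hx, ev_mk]
theorem ext_evr {f g : SF} (h : ∀ x ∈ I01, evr x f = evr x g) : f = g :=
  SF.ext' fun x => by simpa using h x x.2
theorem smooth_evr (f : SF) : ContDiffOn ℝ ∞ (fun x => evr x f) I01 := f.2
theorem hasDeriv_evr (f : SF) {x : ℝ} (hx : x ∈ I01) :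
    HasDerivWithinAt (fun y => evr y f) (evr x (D f)) I01 x := by
  rw [evr_of_mem hx]
  exact hasDeriv_ext f ⟨x, hx⟩
theorem evr_D_of {f : SF} {F : ℝ → ℝ} (hF : ∀ y ∈ I01, evr y f = F y) {x c : ℝ} (hx : x ∈ I01)
    (h : HasDerivWithinAt F c I01 x) : evr x (D f) = c :=
  (uniq x hx).eq_deriv _ (hasDeriv_evr f hx) (h.congr hF (hF x hx))

/-! ### one variable -/

/-- `x / σ` -/
def mm (x w : ℝ) : ℝ := (1 - x) * Real.exp (-w) + x
/-- `σ` -/
def Th (x w : ℝ) : ℝ := x / mm x w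
/-- the relative potential -/
def En (x w g : ℝ) : ℝ := -((1 - x) * w + g + Real.log (mm x w))

theorem mm_pos {x : ℝ} (hx : x ∈ I01) (w : ℝ) : 0 < mm x w := by
  have h := Real.exp_pos (-w)
  rcases hx.1.eq_or_lt with rfl | h0
  · simpa [mm] using h
  · have := mul_nonneg (sub_nonneg.2 hx.2) h.le
    unfold mm
    linarith

/-- the coefficient of the Fubini–Study form in the Hessian of `c log (1 + |w|²) + H σ` -/
def MM (c : ℝ) (H : SF) : SF := algebraMap ℝ SF c + (1 - X) * D H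

theorem evr_MM (c : ℝ) (H : SF) {x : ℝ} (hx : x ∈ I01) : evr x (MM c H) = c + (1 - x) * evr x (D H) := by
  simp [MM, evr_X hx]

theorem evr_D_X_mul (f : SF) {x : ℝ} (hx : x ∈ I01) : evr x (D (X * f)) = evr x f + x * evr x (D f) := by
  rw [D_mul, D_X, one_mul, map_add, map_mul, evr_X hx]

/-- the data at a fixed time -/
structure Prof (Γ g ξ H : SF) : Prop where
  apos : ∀ x ∈ I01, 0 < evr x (1 - q * Γ)
  gg : (1 - q * Γ) * D (D g) = Γ
  mem : ∀ σ ∈ I01, evr σ ξ ∈ I01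
  th : ∀ σ ∈ I01, Th (evr σ ξ) (evr (evr σ ξ) (D g)) = σ
  en : ∀ σ ∈ I01, evr σ H = En (evr σ ξ) (evr (evr σ ξ) (D g)) (evr (evr σ ξ) g)

/-! ### two variables -/

/-- space-time -/
def SS (T : ℝ) : Set (ℝ × ℝ) := Ico 0 T ×ˢ I01

theorem uniqSS (T : ℝ) : UniqueDiffOn ℝ (SS T) := (uniqueDiffOn_Ico 0 T).prod uniq

/-- all jets are jointly `C^n` -/
def JS (n : ℕ) (T : ℝ) (G : ℝ → SF) : Prop :=
  ∀ i, ContDiffOn ℝ n (fun p : ℝ × ℝ => evr p.2 (Dn i (G p.1))) (SS T)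

/-- the family of potentials -/
structure Fam (T : ℝ) (Γ : ℝ → SF) (H ξ : ℝ × ℝ → ℝ) : Prop where
  smooth : ContDiffOn ℝ ∞ H (SS T)
  prof : ∀ t ∈ Ico 0 T, ∃ g ξ' H' : SF, Prof (Γ t) g ξ' H' ∧
    ∀ σ ∈ I01, evr σ H' = H (t, σ) ∧ evr σ ξ' = ξ (t, σ)
  time : ∀ t ∈ Ioo 0 T, ∀ σ ∈ I01, HasDerivAt (fun s => H (s, σ)) (evr (ξ (t, σ)) (Aop 0 (Γ t))) t

/-! ### charts -/

variable {n : ℕ}

def BB (w : V n) : ℝ := 1 + ‖w‖ ^ 2
def ell (c : ℂ) (e : Fin n → ℂ) (w : V n) : ℂ := c + ∑ a, e a * w a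
/-- `(c, e)` is a unit vector -/
def Un (c : ℂ) (e : Fin n → ℂ) : Prop := ‖c‖ ^ 2 + ∑ a, ‖e a‖ ^ 2 = 1
def sg (c : ℂ) (e : Fin n → ℂ) (w : V n) : ℝ := 1 - ‖ell c e w‖ ^ 2 / BB w
def eta (c : ℂ) (e : Fin n → ℂ) (w : V n) (a : Fin n) : ℂ := e a - ell c e w * conj (w a) / BB w
/-- the Fubini–Study metric -/
def kap (w : V n) (a b : Fin n) : ℂ := (if a = b then 1 else 0) / BB w - conj (w a) * w b / BB w ^ 2
/-- the matrix `m κ + m₁ η η̄ / B` -/
def fm (m m₁ : ℝ) (c : ℂ) (e : Fin n → ℂ) (w : V n) : Matrix (Fin n) (Fin n) ℂ :=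
  Matrix.of fun a b => m * kap w a b + m₁ * (eta c e w a * conj (eta c e w b) / BB w)
/-- the matrix `α + β w̄ wᵀ` -/
def rk (α β : ℝ) (w : V n) : Matrix (Fin n) (Fin n) ℂ :=
  Matrix.of fun a b => α * (if a = b then 1 else 0) + β * (conj (w a) * w b)
/-- invariant potentials -/
def pot (c₀ : ℝ) (H : SF) (c : ℂ) (e : Fin n → ℂ) (u : V n) : ℝ := c₀ * fsPot u + evr (sg c e u) H

theorem BB_pos (w : V n) : 0 < BB w := by
  unfold BB
  positivity

theorem un_zero : Un 1 (0 : Fin n → ℂ) := by simp [Un]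

theorem un_single (k : Fin n) : Un 0 (Pi.single k 1 : Fin n → ℂ) := by
  simp [Un, Pi.single_apply, apply_ite]

end Crest.Agent.R213.G
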