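import Crest.Agent.R213.G.Defs

/-! Row 213, block G: the inverse function. -/

set_option autoImplicit false
open Set Filter Topology
open scoped ContDiff ComplexConjugate

noncomputable section
namespace Crest.Agent.R213.G

open Crest.GeometryTopology.ProjKahler

/-- `HasFDerivWithinAt.of_local_left_inverse` gives the derivative `inverse (fderivWithin Φ S (Ψ y))`; induction on the
order (`contDiffOn_succ_iff_hasFDerivWithinAt_of_uniqueDiffOn`, `IsInvertible.contDiffAt_map_inverse`,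
`ContDiffOn.fderivWithin`) -/
theorem contDiffOn_inverse {E : Type*} [NormedAddCommGroup E] [NormedSpace ℝ E] [CompleteSpace E] {Φ Ψ : E → E}
    {S : Set E} (hS : UniqueDiffOn ℝ S) (hΦ : ContDiffOn ℝ ∞ Φ S) (hΨ : ContinuousOn Ψ S) (hm : MapsTo Ψ S S)
    (hi : ∀ y ∈ S, Φ (Ψ y) = y) (hd : ∀ x ∈ S, (fderivWithin ℝ Φ S x).IsInvertible) : ContDiffOn ℝ ∞ Ψ S := by
  obtain ⟨h1, h2⟩ := (contDiffOn_infty_iff_fderivWithin hS).1 hΦ
  have key : ∀ y ∈ S, HasFDerivWithinAt Ψ (fderivWithin ℝ Φ S (Ψ y)).inverse S y := by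
    intro y hy
    obtain ⟨e, he⟩ := hd _ (hm hy)
    rw [← he, ContinuousLinearMap.inverse_equiv]
    refine HasFDerivWithinAt.of_local_left_inverse (f := Φ) (t := S)
      ((hΨ y hy).tendsto_nhdsWithin hm) ?_ hy (eventually_mem_nhdsWithin.mono hi)
    rw [he]
    exact (h1 _ (hm hy)).hasFDerivWithinAt
  refine contDiffOn_infty.2 fun n => ?_
  induction n with
  | zero => exact contDiffOn_zero.2 hΨ
  | succ n ih =>
    rw [Nat.cast_succ, contDiffOn_succ_iff_hasFDerivWithinAt_of_uniqueDiffOn hS]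
    refine ⟨by simp, _, fun y hy => ?_, key⟩
    have h3 : ContDiffOn ℝ n (fun y => fderivWithin ℝ Φ S (Ψ y)) S :=
      (contDiffOn_infty.1 h2 n).comp ih hm
    exact (hd _ (hm hy)).contDiffAt_map_inverse.comp_contDiffWithinAt y (h3 y hy)

/-- `ContinuousLinearEquiv.equivOfInverse` with the inverse `(a, b) ↦ (a, (b - L (1, 0) a) / L (0, 1))` -/
theorem isInvertible_tri (L : ℝ × ℝ →L[ℝ] ℝ) (h : L (0, 1) ≠ 0) :
    ((ContinuousLinearMap.fst ℝ ℝ ℝ).prod L).IsInvertible := by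
  have hL : ∀ a b : ℝ, L (a, b) = a * L (1, 0) + b * L (0, 1) := fun a b => by
    rw [← smul_eq_mul, ← smul_eq_mul, ← map_smul, ← map_smul, ← map_add]
    simp
  refine ⟨ContinuousLinearEquiv.equivOfInverse ((ContinuousLinearMap.fst ℝ ℝ ℝ).prod L)
    ((ContinuousLinearMap.fst ℝ ℝ ℝ).prod ((L (0, 1))⁻¹ •
      (ContinuousLinearMap.snd ℝ ℝ ℝ - L (1, 0) • ContinuousLinearMap.fst ℝ ℝ ℝ))) ?_ ?_, rfl⟩
  · rintro ⟨a, b⟩
    refine Prod.ext rfl ?_
    change (L (0, 1))⁻¹ * (L (a, b) - L (1, 0) * a) = b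
    rw [hL a b]
    field_simp
    ring
  · rintro ⟨a, b⟩
    refine Prod.ext rfl ?_
    change L (a, (L (0, 1))⁻¹ * (b - L (1, 0) * a)) = b
    rw [hL a]
    field_simp
    ring

variable {T : ℝ} {θ ξ : ℝ × ℝ → ℝ}

/-- `continuousWithinAt` by `tendsto_order`: if `a < ξ p` then either `a < 0`, or `θ (p.1, a) < p.2` persists near `p` -/
theorem continuousOn_inv (hθ : ContinuousOn θ (SS T)) (hm : ∀ t ∈ Ico 0 T, StrictMonoOn (fun x => θ (t, x)) I01)
    (hξ : ∀ p ∈ SS T, ξ p ∈ I01 ∧ θ (p.1, ξ p) = p.2) : ContinuousOn ξ (SS T) := by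
  intro p hp
  have hc : ∀ a ∈ I01, ContinuousWithinAt (fun r : ℝ × ℝ => θ (r.1, a) - r.2) (SS T) p := by
    intro a ha
    have h1 : ContinuousOn (fun r : ℝ × ℝ => θ (r.1, a)) (SS T) :=
      hθ.comp (f := fun r : ℝ × ℝ => (r.1, a)) (by fun_prop) fun r hr => ⟨hr.1, ha⟩
    exact (h1 p hp).sub continuous_snd.continuousWithinAt
  obtain ⟨hp1, hp2⟩ := hξ p hp
  refine tendsto_order.2 ⟨fun a ha => ?_, fun a ha => ?_⟩
  · by_cases h0 : a < 0
    · filter_upwards [self_mem_nhdsWithin] with r hr using h0.trans_le (hξ r hr).1.1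
    have haI : a ∈ I01 := ⟨not_lt.1 h0, ha.le.trans hp1.2⟩
    have h1 : θ (p.1, a) - p.2 < 0 := by
      rw [sub_neg, ← hp2]; exact hm p.1 hp.1 haI hp1 ha
    filter_upwards [self_mem_nhdsWithin, (hc a haI).eventually (gt_mem_nhds h1)] with r hr h2
    refine ((hm r.1 hr.1).lt_iff_lt haI (hξ r hr).1).1 ?_
    show θ (r.1, a) < θ (r.1, ξ r)
    rw [(hξ r hr).2]
    exact sub_neg.1 h2
  · by_cases h0 : 1 < a
    · filter_upwards [self_mem_nhdsWithin] with r hr using (hξ r hr).1.2.trans_lt h0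
    have haI : a ∈ I01 := ⟨hp1.1.trans ha.le, not_lt.1 h0⟩
    have h1 : 0 < θ (p.1, a) - p.2 := by
      rw [sub_pos, ← hp2]; exact hm p.1 hp.1 hp1 haI ha
    filter_upwards [self_mem_nhdsWithin, (hc a haI).eventually (lt_mem_nhds h1)] with r hr h2
    refine ((hm r.1 hr.1).lt_iff_lt (hξ r hr).1 haI).1 ?_
    show θ (r.1, ξ r) < θ (r.1, a)
    rw [(hξ r hr).2]
    exact sub_pos.1 h2

/-- existence by `intermediate_value_Icc`, `strictMonoOn_of_hasDerivWithinAt_pos`, `continuousOn_inv`;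
`contDiffOn_inverse` for `Φ p = (p.1, θ p)`, `Ψ p = (p.1, ξ p)`; `fderivWithin θ (SS T) p (0, 1) = d` by the chain rule
along `x ↦ (t, x)` and `uniq` -/
theorem exists_inverse (hθ : ContDiffOn ℝ ∞ θ (SS T)) (h0 : ∀ t ∈ Ico 0 T, θ (t, 0) = 0 ∧ θ (t, 1) = 1)
    (hd : ∀ t ∈ Ico 0 T, ∀ x ∈ I01, ∃ d : ℝ, 0 < d ∧ HasDerivWithinAt (fun y => θ (t, y)) d I01 x) :
    ∃ ξ : ℝ × ℝ → ℝ, ContDiffOn ℝ ∞ ξ (SS T) ∧ ∀ p ∈ SS T, ξ p ∈ I01 ∧ θ (p.1, ξ p) = p.2 := by
  have hcx : ∀ t ∈ Ico 0 T, ContinuousOn (fun x => θ (t, x)) I01 := fun t ht x hx => by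
    obtain ⟨d, -, h⟩ := hd t ht x hx
    exact h.continuousWithinAt
  have hm : ∀ t ∈ Ico 0 T, StrictMonoOn (fun x => θ (t, x)) I01 := fun t ht => by
    choose! d hd0 hd1 using hd t ht
    exact strictMonoOn_of_hasDerivWithinAt_pos (f' := d) (convex_Icc 0 1) (hcx t ht)
      (fun x hx => (hd1 x (interior_subset hx)).mono interior_subset)
      fun x hx => hd0 x (interior_subset hx)
  have hex : ∀ p ∈ SS T, ∃ x, x ∈ I01 ∧ θ (p.1, x) = p.2 := fun p hp => by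
    have h := intermediate_value_Icc zero_le_one (hcx p.1 hp.1)
    simp only [(h0 p.1 hp.1).1, (h0 p.1 hp.1).2] at h
    exact h hp.2
  choose! ξ hξ using hex
  refine ⟨ξ, ?_, hξ⟩
  have hc := continuousOn_inv hθ.continuousOn hm hξ
  have key : ContDiffOn ℝ ∞ (fun p : ℝ × ℝ => (p.1, ξ p)) (SS T) := by
    refine contDiffOn_inverse (Φ := fun p : ℝ × ℝ => (p.1, θ p)) (uniqSS T)
      (contDiffOn_fst.prodMk hθ) (continuousOn_fst.prodMk hc) (fun p hp => ⟨hp.1, (hξ p hp).1⟩)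
      (fun p hp => Prod.ext rfl (hξ p hp).2) fun p hp => ?_
    have h1 : HasFDerivWithinAt θ (fderivWithin ℝ θ (SS T) p) (SS T) p :=
      (hθ.differentiableOn (by simp) p hp).hasFDerivWithinAt
    rw [(hasFDerivWithinAt_fst.prodMk h1).fderivWithin (uniqSS T p hp)]
    refine isInvertible_tri _ ?_
    obtain ⟨d, hd0, hd1⟩ := hd p.1 hp.1 p.2 hp.2
    have h2 : HasDerivWithinAt (fun y : ℝ => (p.1, y)) ((0, 1) : ℝ × ℝ) I01 p.2 :=
      (hasDerivWithinAt_const _ _ _).prodMk (hasDerivWithinAt_id _ _)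
    have h3 : HasDerivWithinAt (fun y => θ (p.1, y)) (fderivWithin ℝ θ (SS T) p (0, 1)) I01 p.2 :=
      HasFDerivWithinAt.comp_hasDerivWithinAt (l := θ) (f := fun y : ℝ => (p.1, y)) p.2 h1 h2
        fun y hy => ⟨hp.1, hy⟩
    rw [(uniq p.2 hp.2).eq_deriv _ h3 hd1]
    exact hd0.ne'
  exact key.snd

end Crest.Agent.R213.G
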