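import Crest.Agent.R213.G.Defs

/-! Row 213, block G: joint smoothness. -/

set_option autoImplicit false
open Set Filter Topology
open scoped ContDiff ComplexConjugate

noncomputable section
namespace Crest.Agent.R213.G

open Crest.GeometryTopology.ProjKahler

open ContinuousLinearMap (fst snd)

/-- `f(τ,y) - f(t,x) = [ext (G τ - G t - (τ-t) U) y] + (τ-t) (ext U y - ext U x) + (τ-t) ext U x + [ext (G t) y - ext (G t) x]`;
the first bracket is bounded by the sup norm, hence `o(τ - t)`; the second term is `o(τ - t)` by `continuous_ext` -/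
theorem hasFDeriv_ext {G : ℝ → CC} {U : CC} {s : Set ℝ} {t x d : ℝ} (hG : HasDerivWithinAt G U s t)
    (hd : HasDerivWithinAt (ext (G t)) d I01 x) :
    HasFDerivWithinAt (fun p : ℝ × ℝ => ext (G p.1) p.2) (ext U x • fst ℝ ℝ ℝ + d • snd ℝ ℝ ℝ)
      (s ×ˢ I01) (t, x) := by
  have h1 : Tendsto (fun p : ℝ × ℝ => p.1) (𝓝[s ×ˢ I01] (t, x)) (𝓝[s] t) :=
    continuousWithinAt_fst.tendsto_nhdsWithin fun _ hp => hp.1
  have h2 : Tendsto (fun p : ℝ × ℝ => p.2) (𝓝[s ×ˢ I01] (t, x)) (𝓝[I01] x) :=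
    continuousWithinAt_snd.tendsto_nhdsWithin fun _ hp => hp.2
  have b1 : (fun p : ℝ × ℝ => p.1 - t) =O[𝓝[s ×ˢ I01] (t, x)] fun p => p - (t, x) :=
    Asymptotics.isBigO_of_le _ fun p => norm_fst_le (p - (t, x))
  have b2 : (fun p : ℝ × ℝ => p.2 - x) =O[𝓝[s ×ˢ I01] (t, x)] fun p => p - (t, x) :=
    Asymptotics.isBigO_of_le _ fun p => norm_snd_le (p - (t, x))
  have o1 : (fun p : ℝ × ℝ => ext (G p.1 - G t - (p.1 - t) • U) p.2) =o[𝓝[s ×ˢ I01] (t, x)]
      fun p => p - (t, x) := by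
    refine Asymptotics.IsBigO.trans_isLittleO ?_ ((hG.isLittleO.comp_tendsto h1).trans_isBigO b1)
    exact Asymptotics.isBigO_of_le _ fun p => (G p.1 - G t - (p.1 - t) • U).norm_coe_le_norm _
  have o2 : (fun p : ℝ × ℝ => (ext U p.2 - ext U x) * (p.1 - t)) =o[𝓝[s ×ˢ I01] (t, x)]
      fun p => p - (t, x) := by
    have h3 : Tendsto (fun p : ℝ × ℝ => ext U p.2 - ext U x) (𝓝[s ×ˢ I01] (t, x)) (𝓝 0) :=
      tendsto_sub_nhds_zero_iff.2
        (((continuous_ext U).tendsto x).comp (h2.mono_right nhdsWithin_le_nhds))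
    have h4 := ((Asymptotics.isLittleO_one_iff ℝ).2 h3).mul_isBigO
      (Asymptotics.isBigO_refl (fun p : ℝ × ℝ => p.1 - t) _)
    simp only [one_mul] at h4
    exact h4.trans_isBigO b1
  have o3 := (hd.isLittleO.comp_tendsto h2).trans_isBigO b2
  rw [hasFDerivWithinAt_iff_isLittleO]
  refine ((o1.add o2).add o3).congr_left fun p => ?_
  simp [ext_sub, ext_smul]
  ring

theorem hasFDeriv_JD {G : ℝ → SF} {U : SF} {s : Set ℝ} {t x : ℝ} (hG : JD G U s t) (hx : x ∈ I01) (i : ℕ) :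
    HasFDerivWithinAt (fun p : ℝ × ℝ => evr p.2 (Dn i (G p.1)))
      (evr x (Dn i U) • fst ℝ ℝ ℝ + evr x (Dn (i + 1) (G t)) • snd ℝ ℝ ℝ) (s ×ˢ I01) (t, x) := by
  have h := hasDeriv_evr (Dn i (G t)) hx
  rw [← Dn_succ] at h
  exact hasFDeriv_ext (G := fun τ => ((Dn i (G τ) : SF) : CC)) (hG i) h

variable {n : ℕ} {T : ℝ} {G G' U : ℝ → SF}

theorem JS.const (n : ℕ) (T : ℝ) (f : SF) : JS n T fun _ => f := fun i =>
  ((smooth_evr (Dn i f)).of_le (by exact_mod_cast le_top)).comp contDiffOn_snd fun _ hp => hp.2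

theorem JS.add (h : JS n T G) (h' : JS n T G') : JS n T fun t => G t + G' t := by
  intro i
  simp only [map_add]
  exact (h i).add (h' i)

theorem JS.neg (h : JS n T G) : JS n T fun t => -G t := by
  intro i
  simp only [map_neg]
  exact (h i).neg

theorem JS.D (h : JS n T G) : JS n T fun t => D (G t) := by
  intro i
  simp only [← Dn_succ']
  exact h (i + 1)

/-- induction on the order `i` of the jet, for all `G`, `G'`: `Dn_succ'`, `D_mul` -/
theorem JS.mul (h : JS n T G) (h' : JS n T G') : JS n T fun t => G t * G' t := by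
  intro i
  induction i generalizing G G' with
  | zero =>
    simp only [Dn_zero, map_mul]
    exact (h 0).mul (h' 0)
  | succ i ih =>
    simp only [Dn_succ', D_mul, map_add]
    exact (ih h.D h').add (ih h h'.D)

theorem jb_dl (h : JS n T G) (j : ℕ) : JS n T fun t => dl j (G t) :=
  ((JS.const n T q).mul h.D).add ((JS.const n T (pp j)).mul h)

theorem JS.aop (h : JS n T G) (j : ℕ) : JS n T fun t => Aop j (G t) :=
  jb_dl (jb_dl h (j + 1)) j

theorem JS.flow (h : JS n T G) : JS n T fun t => flow t (G t) := by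
  have h1 : JS n T fun t => 1 + -(q * G t) := (JS.const n T 1).add ((JS.const n T q).mul h).neg
  have h2 := ((h1.mul h1).mul (h.aop 0).D.D).neg
  have e : (fun t => R213.flow t (G t)) = fun t =>
      -((1 + -(q * G t)) * (1 + -(q * G t)) * R213.D (R213.D (Aop 0 (G t)))) := by
    funext t
    rw [R213.flow, Bop_apply, Dn_succ, Dn_one, sub_eq_add_neg, sq]
  rw [e]
  exact h2

theorem JS.zero (h : ∀ t ∈ Ico 0 T, JD G (U t) (Ico 0 T) t) : JS 0 T G := by
  intro i
  rw [Nat.cast_zero, contDiffOn_zero]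
  exact fun p hp => (hasFDeriv_JD (h p.1 hp.1) hp.2 i).continuousWithinAt

/-- `contDiffOn_succ_iff_hasFDerivWithinAt_of_uniqueDiffOn (uniqSS T)`, `hasFDeriv_JD` -/
theorem JS.succ (h : ∀ t ∈ Ico 0 T, JD G (U t) (Ico 0 T) t) (hU : JS n T U) (hG : JS n T G) :
    JS (n + 1) T G := by
  intro i
  rw [Nat.cast_succ, contDiffOn_succ_iff_hasFDerivWithinAt_of_uniqueDiffOn (uniqSS T)]
  refine ⟨fun h0 => absurd h0 (by simp), fun p => evr p.2 (Dn i (U p.1)) • fst ℝ ℝ ℝ +
    evr p.2 (Dn (i + 1) (G p.1)) • snd ℝ ℝ ℝ, ?_, fun p hp => hasFDeriv_JD (h p.1 hp.1) hp.2 i⟩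
  exact ((hU i).smul contDiffOn_const).add ((hG (i + 1)).smul contDiffOn_const)

theorem js_sol (h : Sol flow G (Ico 0 T)) (n : ℕ) : JS n T G := by
  induction n with
  | zero => exact JS.zero h
  | succ n ih => exact JS.succ h ih.flow ih

theorem js_prim (h : ∀ t ∈ Ico 0 T, JD G (U t) (Ico 0 T) t) (hU : ∀ n, JS n T U) (n : ℕ) : JS n T G := by
  induction n with
  | zero => exact JS.zero h
  | succ n ih => exact JS.succ h (hU n) ih

theorem js_smooth (h : ∀ n, JS n T G) (i : ℕ) :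
    ContDiffOn ℝ ∞ (fun p : ℝ × ℝ => evr p.2 (Dn i (G p.1))) (SS T) := by
  exact contDiffOn_infty.2 fun n => h n i

end Crest.Agent.R213.G
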