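import Crest.Agent.R213.G.Alg

/-! Row 213, block G: the profile at a fixed time.
Notation at a point `σ`: `x = evr σ ξ`, `p = evr σ (D ξ)`, `u = exp (-evr x (D g))`, `m = mm x (evr x (D g)) = (1-x) u + x`,
`A = evr x (1 - q Γ) = 1 - x (1-x) γ`, `w₂ = evr x (D (D g))`, `A w₂ = γ = evr x Γ`, `σ m = x`. -/

set_option autoImplicit false
open Set Filter Topology
open scoped ContDiff ComplexConjugate

noncomputable section
namespace Crest.Agent.R213.G

open Crest.GeometryTopology.ProjKahler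

variable {Γ g ξ H : SF}

theorem pa_comp (h : Prof Γ g ξ H) (f : SF) {σ : ℝ} (hσ : σ ∈ I01) :
    HasDerivWithinAt (fun s => evr (evr s ξ) f) (evr (evr σ ξ) (D f) * evr σ (D ξ)) I01 σ :=
  HasDerivWithinAt.comp σ (h₂ := fun y => evr y f) (h := fun s => evr s ξ)
    (hasDeriv_evr f (h.mem σ hσ)) (hasDeriv_evr ξ hσ) h.mem

/-- chain rule (`HasDerivWithinAt.comp` with `hasDeriv_evr`, `h.mem`) -/
theorem Prof.hasDeriv_m (h : Prof Γ g ξ H) {σ : ℝ} (hσ : σ ∈ I01) :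
    HasDerivWithinAt (fun s => mm (evr s ξ) (evr (evr s ξ) (D g)))
      (evr σ (D ξ) * (1 - Real.exp (-evr (evr σ ξ) (D g)) -
        (1 - evr σ ξ) * Real.exp (-evr (evr σ ξ) (D g)) * evr (evr σ ξ) (D (D g)))) I01 σ := by
  have h1 := hasDeriv_evr ξ hσ
  have h2 := (pa_comp h (D g) hσ).neg.exp
  have h3 := ((h1.const_sub 1).mul h2).add h1
  refine HasDerivWithinAt.congr_deriv h3 ?_
  simp only [Pi.neg_apply]
  ring

theorem Prof.mul_m (h : Prof Γ g ξ H) {σ : ℝ} (hσ : σ ∈ I01) :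
    σ * mm (evr σ ξ) (evr (evr σ ξ) (D g)) = evr σ ξ := by
  have h1 := h.th σ hσ
  have h2 := mm_pos (h.mem σ hσ) (evr (evr σ ξ) (D g))
  rw [Th, div_eq_iff h2.ne'] at h1
  exact h1.symm

theorem pa_key (h : Prof Γ g ξ H) {σ : ℝ} (hσ : σ ∈ I01) :
    mm (evr σ ξ) (evr (evr σ ξ) (D g)) ^ 2 = evr σ (D ξ) * Real.exp (-evr (evr σ ξ) (D g)) *
      (1 + evr σ ξ * (1 - evr σ ξ) * evr (evr σ ξ) (D (D g))) := by
  have h1 := (hasDerivWithinAt_id σ I01).mul (h.hasDeriv_m hσ)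
  have h2 := evr_D_of (f := ξ) (fun y hy => (h.mul_m hy).symm) hσ h1
  have h3 := h.mul_m hσ
  simp only [id] at h2
  have h4 : mm (evr σ ξ) (evr (evr σ ξ) (D g)) =
      (1 - evr σ ξ) * Real.exp (-evr (evr σ ξ) (D g)) + evr σ ξ := rfl
  generalize mm (evr σ ξ) (evr (evr σ ξ) (D g)) = m at h2 h3 h4 ⊢
  generalize Real.exp (-evr (evr σ ξ) (D g)) = u at h2 h4 ⊢
  generalize evr (evr σ ξ) (D (D g)) = w at h2 ⊢
  generalize evr σ (D ξ) = p at h2 ⊢
  generalize evr σ ξ = x at h2 h3 h4 ⊢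
  linear_combination (-m) * h2 - p * (1 - u - (1 - x) * u * w) * h3 + p * h4

/-- differentiate `σ m = x`: `p = m + σ m'`; multiply by `m` and by `A` (`m - x + x u = u`, `A + x (1-x) γ = 1`) -/
theorem Prof.p_eq (h : Prof Γ g ξ H) {σ : ℝ} (hσ : σ ∈ I01) :
    evr σ (D ξ) * Real.exp (-evr (evr σ ξ) (D g)) =
      evr (evr σ ξ) (1 - q * Γ) * mm (evr σ ξ) (evr (evr σ ξ) (D g)) ^ 2 := by
  have h1 := pa_key h hσ
  have h2 := congrArg (evr (evr σ ξ)) h.gg
  have h3 : evr (evr σ ξ) (1 - q * Γ) = 1 - evr σ ξ * (1 - evr σ ξ) * evr (evr σ ξ) Γ := by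
    rw [map_sub, map_one, map_mul, evr_q (h.mem σ hσ)]
  rw [map_mul] at h2
  rw [h1]
  generalize evr (evr σ ξ) (1 - q * Γ) = A at h2 h3 ⊢
  linear_combination (-(evr σ (D ξ) * Real.exp (-evr (evr σ ξ) (D g)))) * h3 -
    evr σ (D ξ) * Real.exp (-evr (evr σ ξ) (D g)) * (evr σ ξ * (1 - evr σ ξ)) * h2

theorem Prof.p_pos (h : Prof Γ g ξ H) {σ : ℝ} (hσ : σ ∈ I01) : 0 < evr σ (D ξ) := by
  have h1 := h.p_eq hσ
  have h2 := mul_pos (h.apos _ (h.mem σ hσ)) (pow_pos (mm_pos (h.mem σ hσ) (evr (evr σ ξ) (D g))) 2)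
  rw [← h1] at h2
  exact (mul_pos_iff_of_pos_right (Real.exp_pos _)).1 h2

/-- `H' = -((1-x) w₂ p + m'/m) = (u - 1) m / u` and `(1 - σ) m = (1 - x) u` -/
theorem Prof.MM_eq (h : Prof Γ g ξ H) {σ : ℝ} (hσ : σ ∈ I01) :
    evr σ (MM 1 H) = mm (evr σ ξ) (evr (evr σ ξ) (D g)) := by
  have hm := mm_pos (h.mem σ hσ) (evr (evr σ ξ) (D g))
  have h1 := ((((hasDeriv_evr ξ hσ).const_sub 1).mul (pa_comp h (D g) hσ)).add (pa_comp h g hσ)).add
    ((h.hasDeriv_m hσ).log hm.ne') |>.neg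
  have h2 := evr_D_of (f := H) (fun y hy => h.en y hy) hσ h1
  have h3 := h.mul_m hσ
  have h5 := pa_key h hσ
  have h4 : mm (evr σ ξ) (evr (evr σ ξ) (D g)) =
      (1 - evr σ ξ) * Real.exp (-evr (evr σ ξ) (D g)) + evr σ ξ := rfl
  have hu := Real.exp_pos (-evr (evr σ ξ) (D g))
  rw [evr_MM 1 H hσ]
  generalize evr σ (D H) = d at h2 ⊢
  generalize mm (evr σ ξ) (evr (evr σ ξ) (D g)) = m at h2 h3 h4 h5 hm ⊢
  generalize Real.exp (-evr (evr σ ξ) (D g)) = u at h2 h4 h5 hu ⊢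
  generalize evr (evr σ ξ) (D (D g)) = w at h2 h5 ⊢
  generalize evr (evr σ ξ) (D g) = w₁ at h2 ⊢
  generalize evr σ (D ξ) = p at h2 h5 ⊢
  generalize evr σ ξ = x at h2 h3 h4 h5 ⊢
  have h6 : d * m = -((1 - x) * w * p * m + p * (1 - u - (1 - x) * u * w)) := by
    rw [h2]
    field_simp
    ring
  have h7 : d * u = (u - 1) * m := by
    apply mul_right_cancel₀ hm.ne'
    linear_combination u * h6 - (u - 1) * h5 - p * u * (1 - x) * w * h4
  apply mul_right_cancel₀ hu.ne'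
  linear_combination (1 - σ) * h7 - (u - 1) * h3 - h4

theorem Prof.m_pos (h : Prof Γ g ξ H) {σ : ℝ} (hσ : σ ∈ I01) : 0 < evr σ (MM 1 H) := by
  rw [h.MM_eq hσ]
  exact mm_pos (h.mem σ hσ) _

theorem Prof.X_mul (h : Prof Γ g ξ H) : X * MM 1 H = ξ := by
  refine ext_evr fun σ hσ => ?_
  rw [map_mul, evr_X hσ, h.MM_eq hσ, h.mul_m hσ]

theorem Prof.xi_zero (h : Prof Γ g ξ H) : evr 0 ξ = 0 := by
  have := h.mul_m (σ := 0) ⟨le_rfl, zero_le_one⟩
  rw [zero_mul] at this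
  exact this.symm

/-- `L = 11 log m + log A + g'(x)` on `I01` (`p_eq`), so `L' = 11 m'/m + p A'(x)/A + p w₂`;
`(1 - σ) p = (1 - x) A m`; `evr_D_a`, `evr_R1`, `field_simp`, `linear_combination`
(substitute `γ = A w₂`-free form: `w₂ = γ / A`, `p = A m² / u`, `σ = x / m`). -/
theorem Prof.MM_L (h : Prof Γ g ξ H) {L : SF}
    (hL : ∀ x ∈ I01, evr x L = 9 * Real.log (evr x (MM 1 H)) + Real.log (evr x (D (X * MM 1 H))))
    {σ : ℝ} (hσ : σ ∈ I01) : evr σ (MM (-11) L) = evr σ (MM 1 H) * evr (evr σ ξ) (R1 Γ) := by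
  have hx := h.mem σ hσ
  have hξ := hasDeriv_evr ξ hσ
  have hc : ∀ f : SF, HasDerivWithinAt (fun s => evr (evr s ξ) f) (evr (evr σ ξ) (D f) * evr σ (D ξ)) I01 σ :=
    fun f => HasDerivWithinAt.comp (h₂ := fun y => evr y f) σ (hasDeriv_evr f hx) hξ h.mem
  have hA := h.apos _ hx
  have hm := mm_pos hx (evr (evr σ ξ) (D g))
  have h1 := evr_D_of (f := L) (F := fun s => 11 * Real.log (mm (evr s ξ) (evr (evr s ξ) (D g))) +
      Real.log (evr (evr s ξ) (1 - q * Γ)) + evr (evr s ξ) (D g)) (fun s hs => by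
    have h2 := congrArg Real.log (h.p_eq hs)
    have h3 := mm_pos (h.mem s hs) (evr (evr s ξ) (D g))
    rw [Real.log_mul (h.p_pos hs).ne' (Real.exp_pos _).ne', Real.log_exp,
      Real.log_mul (h.apos _ (h.mem s hs)).ne' (by positivity), Real.log_pow] at h2
    rw [hL s hs, h.X_mul, h.MM_eq hs]
    push_cast at h2
    linarith) hσ
    (((((h.hasDeriv_m hσ).log hm.ne').const_mul 11).add ((hc _).log hA.ne')).add (hc _))
  have h2 := h.mul_m hσ
  have h3 := h.p_eq hσ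
  have h4 := congrArg (evr (evr σ ξ)) h.gg
  have h5 : evr (evr σ ξ) (1 - q * Γ) = 1 - evr σ ξ * (1 - evr σ ξ) * evr (evr σ ξ) Γ := by
    rw [map_sub, map_one, map_mul, evr_q hx]
  rw [map_mul] at h4
  rw [evr_MM _ _ hσ, h1, h.MM_eq hσ, evr_R1 _ hx, evr_D_a _ hx]
  have h6 : mm (evr σ ξ) (evr (evr σ ξ) (D g)) =
    (1 - evr σ ξ) * Real.exp (-evr (evr σ ξ) (D g)) + evr σ ξ := rfl
  have hu := Real.exp_pos (-evr (evr σ ξ) (D g))
  generalize mm (evr σ ξ) (evr (evr σ ξ) (D g)) = m at *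
  generalize Real.exp (-evr (evr σ ξ) (D g)) = u at *
  generalize evr (evr σ ξ) (1 - q * Γ) = A at *
  generalize evr (evr σ ξ) (D (D g)) = w at *
  generalize evr (evr σ ξ) (D Γ) = γ' at *
  generalize evr (evr σ ξ) Γ = γ at *
  generalize evr σ (D ξ) = p at *
  generalize evr σ ξ = x at *
  have h7 : (1 - σ) * p = (1 - x) * A * m := by
    have h8 : (1 - σ) * m = (1 - x) * u := by linarith
    have : m * u * ((1 - σ) * p) = m * u * ((1 - x) * A * m) := by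
      linear_combination m * (1 - σ) * h3 + A * m ^ 2 * h8
    exact mul_left_cancel₀ (by positivity) this
  have h8 : (1 - σ) * (11 * (p * (1 - u - (1 - x) * u * w) / m) +
      -((1 - 2 * x) * γ + x * (1 - x) * γ') * p / A + w * p) = (1 - σ) * p *
      (11 * (1 - u - (1 - x) * u * w) / m + -((1 - 2 * x) * γ + x * (1 - x) * γ') / A + w) := by ring
  rw [h8, h7]
  have h9 : (1 - x) * A * m *
      (11 * (1 - u - (1 - x) * u * w) / m + -((1 - 2 * x) * γ + x * (1 - x) * γ') / A + w) =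
      (1 - x) * (11 * (A * (1 - u) - (1 - x) * u * (A * w)) +
        m * (-((1 - 2 * x) * γ + x * (1 - x) * γ') + A * w)) := by
    field_simp
    ring
  rw [h9, h4, h5, h6]
  ring

/-- `exists_log` twice; `X * MM (-11) L = C (X * R1 Γ)` with `C` from `exists_comp`, `R1_eq` -/
theorem Prof.curv (h : Prof Γ g ξ H) : ∃ L : SF,
    (∀ x ∈ I01, evr x L = 9 * Real.log (evr x (MM 1 H)) + Real.log (evr x (D (X * MM 1 H)))) ∧
    ∀ σ ∈ I01, -(9 * (evr σ (MM (-11) L) / evr σ (MM 1 H)) +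
      evr σ (D (X * MM (-11) L)) / evr σ (D (X * MM 1 H))) = 110 + evr (evr σ ξ) (Aop 0 Γ) := by
  have hp : ∀ x ∈ I01, 0 < evr x (D (X * MM 1 H)) := fun x hx => by
    rw [h.X_mul]
    exact h.p_pos hx
  obtain ⟨L₁, h1, -⟩ := exists_log (f := MM 1 H) fun x hx => h.m_pos hx
  obtain ⟨L₂, h2, -⟩ := exists_log hp
  obtain ⟨C, hC, hC'⟩ := exists_comp h.mem
  have hL : ∀ x ∈ I01, evr x ((9 : ℝ) • L₁ + L₂) =
      9 * Real.log (evr x (MM 1 H)) + Real.log (evr x (D (X * MM 1 H))) := fun x hx => by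
    rw [map_add, evr_smul, h1 x hx, h2 x hx]
  refine ⟨_, hL, fun σ hσ => ?_⟩
  have e : X * MM (-11) ((9 : ℝ) • L₁ + L₂) = C (X * R1 Γ) := ext_evr fun x hx => by
    rw [hC _ x hx, map_mul, map_mul, h.MM_L hL hx, evr_X hx, evr_X (h.mem x hx), h.MM_eq hx, ← mul_assoc,
      h.mul_m hx]
  have h3 := congrArg (evr (evr σ ξ)) (R1_eq Γ)
  rw [map_neg, map_add, map_add, map_mul, map_ofNat, map_ofNat] at h3
  rw [e, hC', h.MM_L hL hσ, h.X_mul, map_mul, hC _ σ hσ, mul_div_cancel_left₀ _ (h.m_pos hσ).ne',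
    mul_div_cancel_right₀ _ (h.p_pos hσ).ne', h3]

/-- the time derivative (Legendre transform): differentiate `σ m = x` to get `x' = -x (1-x) w'`
(`x' m = x m'`, `m' = x' (1-u) - (1-x) u w'`), then `(1-x) w' + m'/m = 0` -/
theorem hasDeriv_En {x w γ : ℝ → ℝ} {t σ x' w' S : ℝ} (hx : HasDerivAt x x' t) (hw : HasDerivAt w w' t)
    (hγ : HasDerivAt γ (-S + w t * x') t) (h : ∀ᶠ s in 𝓝 t, x s ∈ I01 ∧ Th (x s) (w s) = σ) :
    HasDerivAt (fun s => En (x s) (w s) (γ s)) S t := by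
  have ht := h.self_of_nhds
  have hm0 := mm_pos ht.1 (w t)
  have hm : HasDerivAt (fun s => mm (x s) (w s))
      (-x' * Real.exp (-w t) + (1 - x t) * (Real.exp (-w t) * -w') + x') t :=
    ((hx.const_sub 1).mul hw.neg.exp).add hx
  have hmul : ∀ s, x s ∈ I01 ∧ Th (x s) (w s) = σ → x s = σ * mm (x s) (w s) := fun s hs => by
    have h1 := hs.2
    rwa [Th, div_eq_iff (mm_pos hs.1 (w s)).ne'] at h1
  have h1 := hx.unique ((hm.const_mul σ).congr_of_eventuallyEq (h.mono hmul))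
  have h2 := hmul t ht
  have h3 := ((((hx.const_sub 1).mul hw).add hγ).add (hm.log hm0.ne')).neg
  refine HasDerivAt.congr_deriv h3 ?_
  have h4 : mm (x t) (w t) = (1 - x t) * Real.exp (-w t) + x t := rfl
  have hu := Real.exp_pos (-w t)
  generalize mm (x t) (w t) = m at h2 h4 hm0 ⊢
  generalize Real.exp (-w t) = u at h1 h4 hu ⊢
  generalize x t = y at h1 h2 h4 ⊢
  have h5 : x' = -(y * (1 - y) * w') := by
    apply mul_right_cancel₀ hu.ne'
    linear_combination m * h1 - (-x' * u + (1 - y) * (u * -w') + x') * h2 - x' * h4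
  have h6 : (-x' * u + (1 - y) * (u * -w') + x') / m = -((1 - y) * w') := by
    rw [div_eq_iff hm0.ne', h4, h5]
    ring
  rw [h6]
  ring

/-- the derivative of `x ↦ Th x (g' x)` is `u (1 + x (1-x) w₂) / m² = u / (A m²)` -/
theorem hasDeriv_Th (ha : ∀ x ∈ I01, 0 < evr x (1 - q * Γ)) (hg : (1 - q * Γ) * D (D g) = Γ) {x : ℝ}
    (hx : x ∈ I01) : ∃ d : ℝ, 0 < d ∧ HasDerivWithinAt (fun y => Th y (evr y (D g))) d I01 x := by
  have hm0 := mm_pos hx (evr x (D g))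
  have hm : HasDerivWithinAt (fun y => mm y (evr y (D g)))
      (-1 * Real.exp (-evr x (D g)) + (1 - x) * (Real.exp (-evr x (D g)) * -evr x (D (D g))) + 1)
      I01 x :=
    (((hasDerivWithinAt_id x I01).const_sub 1).mul (hasDeriv_evr (D g) hx).neg.exp).add
      (hasDerivWithinAt_id x I01)
  refine ⟨_, ?_, (hasDerivWithinAt_id x I01).div hm hm0.ne'⟩
  refine div_pos ?_ (pow_pos hm0 2)
  have h1 := ha x hx
  have h2 := congrArg (evr x) hg
  have h3 : evr x (1 - q * Γ) = 1 - x * (1 - x) * evr x Γ := by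
    rw [map_sub, map_one, map_mul, evr_q hx]
  rw [map_mul] at h2
  have h4 : evr x (1 - q * Γ) * (1 + x * (1 - x) * evr x (D (D g))) = 1 := by
    linear_combination h3 + x * (1 - x) * h2
  have h5 : 0 < 1 + x * (1 - x) * evr x (D (D g)) :=
    (mul_pos_iff_of_pos_left h1).1 (by rw [h4]; exact one_pos)
  have h6 := mul_pos (Real.exp_pos (-evr x (D g))) h5
  refine h6.trans_eq ?_
  simp only [mm, id]
  ring

end Crest.Agent.R213.G
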