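import Crest.Agent.R213.G.Pot
import Crest.Agent.R213.G.Joint
import Crest.Agent.R213.G.Inv
import Crest.Agent.R213.G.Prof

/-! Row 213, block G: the family of potentials. -/

set_option autoImplicit false
open Set Filter Topology
open scoped ContDiff ComplexConjugate

noncomputable section
namespace Crest.Agent.R213.G

open Crest.GeometryTopology.ProjKahler

theorem exists_fam {T : ℝ} {Γ : ℝ → SF} (hT : 0 < T) (h : Sol flow Γ (Ico 0 T))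
    (ha : ∀ t ∈ Ico 0 T, ∀ x, 0 < ev x (1 - q * Γ t)) : ∃ H ξ : ℝ × ℝ → ℝ, Fam T Γ H ξ := by
  obtain ⟨g, hg, hgg⟩ := exists_pot hT h ha
  have hs : ∀ i, ContDiffOn ℝ ∞ (fun p : ℝ × ℝ => evr p.2 (Dn i (g p.1))) (SS T) :=
    js_smooth (js_prim hg fun n => ((js_sol h n).aop 0).neg)
  have hs0 : ContDiffOn ℝ ∞ (fun p : ℝ × ℝ => evr p.2 (g p.1)) (SS T) := hs 0
  have hs1 : ContDiffOn ℝ ∞ (fun p : ℝ × ℝ => evr p.2 (D (g p.1))) (SS T) := by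
    simpa only [Dn_one] using hs 1
  have ha' : ∀ t ∈ Ico 0 T, ∀ x ∈ I01, 0 < evr x (1 - q * Γ t) := fun t ht x _ => ha t ht _
  have hmm : ContDiffOn ℝ ∞ (fun p : ℝ × ℝ => mm p.2 (evr p.2 (D (g p.1)))) (SS T) :=
    ((contDiffOn_const.sub contDiffOn_snd).mul hs1.neg.exp).add contDiffOn_snd
  obtain ⟨ξ, hξ, hξ'⟩ := exists_inverse (θ := fun p => Th p.2 (evr p.2 (D (g p.1))))
    (contDiffOn_snd.div hmm fun p hp => (mm_pos hp.2 _).ne')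
    (fun t _ => ⟨by simp [Th], by simp [Th, mm]⟩) fun t ht x hx => hasDeriv_Th (ha' t ht) (hgg t ht) hx
  have hΨ : ContDiffOn ℝ ∞ (fun p : ℝ × ℝ => (p.1, ξ p)) (SS T) := contDiffOn_fst.prodMk hξ
  have hm : MapsTo (fun p : ℝ × ℝ => (p.1, ξ p)) (SS T) (SS T) := fun p hp => ⟨hp.1, (hξ' p hp).1⟩
  have hE : ContDiffOn ℝ ∞ (fun p : ℝ × ℝ => En p.2 (evr p.2 (D (g p.1))) (evr p.2 (g p.1))) (SS T) :=
    ((((contDiffOn_const.sub contDiffOn_snd).mul hs1).add hs0).add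
      (hmm.log fun p hp => (mm_pos hp.2 _).ne')).neg
  have hH : ContDiffOn ℝ ∞ (fun p : ℝ × ℝ => En (ξ p) (evr (ξ p) (D (g p.1))) (evr (ξ p) (g p.1))) (SS T) :=
    hE.comp hΨ hm
  refine ⟨_, ξ, hH, fun t ht => ?_, fun t ht σ hσ => ?_⟩
  · have sl : ∀ {F : ℝ × ℝ → ℝ}, ContDiffOn ℝ ∞ F (SS T) → ContDiffOn ℝ ∞ (fun σ => F (t, σ)) I01 :=
      fun hF => hF.comp (contDiffOn_const.prodMk contDiffOn_id) fun σ hσ => ⟨ht, hσ⟩
    refine ⟨g t, mk _ (sl hξ), mk _ (sl hH), ⟨ha' t ht, hgg t ht, fun σ hσ => ?_, fun σ hσ => ?_,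
      fun σ hσ => ?_⟩, fun σ hσ => ⟨evr_mk _ _ hσ, evr_mk _ _ hσ⟩⟩
    · rw [evr_mk _ _ hσ]
      exact (hξ' (t, σ) ⟨ht, hσ⟩).1
    · rw [evr_mk _ _ hσ]
      exact (hξ' (t, σ) ⟨ht, hσ⟩).2
    · rw [evr_mk _ _ hσ, evr_mk _ _ hσ]
  · have hn : Ico 0 T ∈ 𝓝 t := Ico_mem_nhds ht.1 ht.2
    have ht' : t ∈ Ico 0 T := Ioo_subset_Ico_self ht
    have sl : ∀ {F : ℝ × ℝ → ℝ}, ContDiffOn ℝ ∞ F (SS T) → DifferentiableAt ℝ (fun s => F (s, σ)) t :=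
      fun hF => ((hF.comp (contDiffOn_id.prodMk contDiffOn_const) fun s hs => ⟨hs, hσ⟩).differentiableOn
        (by simp)).differentiableAt hn
    have hx := (sl hξ).hasDerivAt
    have hw := (sl (hs1.comp hΨ hm)).hasDerivAt
    have hc : MapsTo (fun s => (id s, ξ (s, σ))) (Ico 0 T) (Ico 0 T ×ˢ I01) :=
      fun s hs => ⟨hs, (hξ' (s, σ) ⟨hs, hσ⟩).1⟩
    have hγ := ((hasFDeriv_JD (hg t ht') (hξ' (t, σ) ⟨ht', hσ⟩).1 0).comp_hasDerivWithinAt t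
      (((hasDerivAt_id t).prodMk hx).hasDerivWithinAt (s := Ico 0 T)) hc).hasDerivAt hn
    refine hasDeriv_En (σ := σ) hx hw (hγ.congr_deriv ?_) ?_
    · simp [Dn_one]
    · filter_upwards [hn] with s hs
      exact hξ' (s, σ) ⟨hs, hσ⟩

end Crest.Agent.R213.G
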