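import Crest.Agent.R213.G.Defs

/-! Row 213, block G: matrices. -/

set_option autoImplicit false
open Set Filter Topology
open scoped ContDiff ComplexConjugate ComplexOrder

noncomputable section
namespace Crest.Agent.R213.G

open Crest.GeometryTopology.ProjKahler

variable {n : ℕ} {c : ℂ} {e : Fin n → ℂ}

theorem ma_inner {F : Type*} [NormedAddCommGroup F] [InnerProductSpace ℂ F] (E Y Z : F) (hZ : Z ≠ 0) :
    inner ℂ (E - (inner ℂ Z E / ((‖Z‖ ^ 2 : ℝ) : ℂ)) • Z) (Y - (inner ℂ Z Y / ((‖Z‖ ^ 2 : ℝ) : ℂ)) • Z) =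
      inner ℂ E Y - inner ℂ E Z * inner ℂ Z Y / (‖Z‖ ^ 2 : ℝ) := by
  have h : ((‖Z‖ ^ 2 : ℝ) : ℂ) ≠ 0 := Complex.ofReal_ne_zero.2 (pow_ne_zero 2 (norm_ne_zero_iff.2 hZ))
  have h1 : inner ℂ Z Z = ((‖Z‖ ^ 2 : ℝ) : ℂ) := by rw [inner_self_eq_norm_sq_to_K]; simp
  simp only [inner_sub_left, inner_sub_right, inner_smul_left, inner_smul_right, h1, map_div₀,
    inner_conj_symm, Complex.conj_ofReal]
  field_simp
  ring

theorem ma_norm {F : Type*} [NormedAddCommGroup F] [InnerProductSpace ℂ F] (E Z : F) (hZ : Z ≠ 0) :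
    ‖E - (inner ℂ Z E / ((‖Z‖ ^ 2 : ℝ) : ℂ)) • Z‖ ^ 2 = ‖E‖ ^ 2 - ‖inner ℂ Z E‖ ^ 2 / ‖Z‖ ^ 2 := by
  have h := ma_inner E E Z hZ
  rw [inner_self_eq_norm_sq_to_K, inner_self_eq_norm_sq_to_K, ← inner_conj_symm E Z,
    Complex.conj_mul'] at h
  apply Complex.ofReal_injective
  push_cast at h ⊢
  exact h

/-- Cauchy–Schwarz for the projections of `E` and `Y` orthogonally to `Z` -/
theorem gram3 {F : Type*} [NormedAddCommGroup F] [InnerProductSpace ℂ F] (E Y Z : F) (hZ : Z ≠ 0) :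
    ‖inner ℂ E Y - inner ℂ E Z * inner ℂ Z Y / (‖Z‖ ^ 2 : ℝ)‖ ^ 2 ≤
      (‖E‖ ^ 2 - ‖inner ℂ E Z‖ ^ 2 / ‖Z‖ ^ 2) * (‖Y‖ ^ 2 - ‖inner ℂ Z Y‖ ^ 2 / ‖Z‖ ^ 2) := by
  rw [← ma_inner E Y Z hZ, norm_inner_symm E Z, ← ma_norm E Z hZ, ← ma_norm Y Z hZ, ← mul_pow]
  exact pow_le_pow_left₀ (norm_nonneg _) (norm_inner_le_norm _ _) 2

/-- the Fubini–Study form -/
def kq (w : V n) (y : Fin n → ℂ) : ℝ := (∑ a, ‖y a‖ ^ 2) / BB w - ‖∑ a, conj (w a) * y a‖ ^ 2 / BB w ^ 2

/-- Cauchy–Schwarz: `‖∑ conj (w a) y a‖² ≤ ‖w‖² ∑ ‖y a‖²` -/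
theorem kq_pos (w : V n) {y : Fin n → ℂ} (hy : y ≠ 0) : 0 < kq w y := by
  have h1 := pow_le_pow_left₀ (norm_nonneg _) (norm_inner_le_norm (𝕜 := ℂ) w (WithLp.toLp 2 y)) 2
  have h2 : 0 < ‖(WithLp.toLp 2 y : V n)‖ ^ 2 :=
    pow_pos (norm_pos_iff.2 fun h => hy (by simpa using h)) 2
  rw [mul_pow, EuclideanSpace.norm_sq_eq (WithLp.toLp 2 y), PiLp.inner_apply] at h1
  rw [EuclideanSpace.norm_sq_eq] at h2
  simp only [RCLike.inner_apply'] at h1 h2
  have hB := BB_pos w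
  rw [kq, sub_pos, div_lt_div_iff₀ (by positivity) hB]
  have h3 : ‖∑ a, conj (w a) * y a‖ ^ 2 < (∑ a, ‖y a‖ ^ 2) * BB w := by
    unfold BB
    nlinarith
  nlinarith [mul_lt_mul_of_pos_right h3 hB]

/-- `gram3` in `EuclideanSpace ℂ (Option (Fin n))` with `E = (conj c, conj e)`, `Y = (0, y)`, `Z = (1, w)`
(`Fintype.sum_option`, `EuclideanSpace.norm_sq_eq`, `PiLp.inner_apply`) -/
theorem eta_le (h : Un c e) (w : V n) (y : Fin n → ℂ) :
    ‖∑ a, eta c e w a * y a‖ ^ 2 / BB w ≤ sg c e w * kq w y := by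
  have hB := BB_pos w
  set E : EuclideanSpace ℂ (Option (Fin n)) := WithLp.toLp 2 fun o => o.elim (conj c) fun a => conj (e a)
    with hE
  set Y : EuclideanSpace ℂ (Option (Fin n)) := WithLp.toLp 2 fun o => o.elim 0 y with hY
  set Z : EuclideanSpace ℂ (Option (Fin n)) := WithLp.toLp 2 fun o => o.elim 1 w with hZ
  have e1 : ‖Z‖ ^ 2 = BB w := by
    simp [hZ, EuclideanSpace.norm_sq_eq, Fintype.sum_option, BB]
  have e2 : ‖E‖ ^ 2 = 1 := by
    simpa [hE, EuclideanSpace.norm_sq_eq, Fintype.sum_option, Un] using h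
  have e3 : ‖Y‖ ^ 2 = ∑ a, ‖y a‖ ^ 2 := by
    simp [hY, EuclideanSpace.norm_sq_eq, Fintype.sum_option]
  have e4 : inner ℂ E Y = ∑ a, e a * y a := by
    simp [hE, hY, PiLp.inner_apply, Fintype.sum_option, mul_comm]
  have e5 : inner ℂ E Z = ell c e w := by
    simp [hE, hZ, PiLp.inner_apply, Fintype.sum_option, ell, mul_comm]
  have e6 : inner ℂ Z Y = ∑ a, conj (w a) * y a := by
    simp [hY, hZ, PiLp.inner_apply, Fintype.sum_option, mul_comm]
  have h1 := gram3 E Y Z fun h0 => by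
    rw [h0, norm_zero, zero_pow two_ne_zero] at e1
    exact hB.ne e1
  rw [e1, e2, e3, e4, e5, e6] at h1
  have e7 : ∑ a, eta c e w a * y a =
      ∑ a, e a * y a - ell c e w * (∑ a, conj (w a) * y a) / (BB w : ℝ) := by
    rw [Finset.mul_sum, Finset.sum_div, ← Finset.sum_sub_distrib]
    exact Finset.sum_congr rfl fun a _ => by rw [eta]; ring
  rw [e7, div_le_iff₀ hB]
  refine h1.trans_eq ?_
  rw [sg, kq]
  field_simp

theorem ma_form (m m₁ : ℝ) (w : V n) (x : Fin n → ℂ) :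
    star x ⬝ᵥ (fm m m₁ c e w).mulVec x =
      ((m * kq w (star x) + m₁ * (‖∑ a, eta c e w a * star x a‖ ^ 2 / BB w) : ℝ) : ℂ) := by
  have e1 : ∀ u : Fin n → ℂ, ((‖∑ a, u a * star x a‖ : ℝ) : ℂ) ^ 2 =
      ∑ a, ∑ b, conj (x a) * (u a * conj (u b) * x b) := fun u => by
    rw [← Complex.mul_conj', map_sum, Finset.sum_mul_sum]
    refine Finset.sum_congr rfl fun a _ => Finset.sum_congr rfl fun b _ => ?_
    simp only [Pi.star_apply, RCLike.star_def, map_mul, Complex.conj_conj]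
    ring
  have e2 : ∑ a, ((‖star x a‖ : ℝ) : ℂ) ^ 2 =
      ∑ a, ∑ b, conj (x a) * ((if a = b then 1 else 0) * x b) := by
    refine Finset.sum_congr rfl fun a _ => ?_
    simp [← Complex.conj_mul']
  unfold kq
  push_cast
  rw [e1 (eta c e w), e1 fun a => conj (w a), e2]
  simp only [dotProduct, Matrix.mulVec, fm, Matrix.of_apply, kap, Finset.mul_sum, Finset.sum_div,
    ← Finset.sum_sub_distrib, ← Finset.sum_add_distrib, Pi.star_apply, RCLike.star_def,
    Complex.conj_conj]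
  exact Finset.sum_congr rfl fun a _ => Finset.sum_congr rfl fun b _ => by ring

/-- `Matrix.posDef_iff_dotProduct_mulVec`; with `y = star x` the form is the real number
`m kq w y + m₁ ‖∑ eta a y a‖² / B`, which is `≥ m kq` if `m₁ ≥ 0` and `≥ (m + σ m₁) kq` otherwise -/
theorem posDef_fm (h : Un c e) {m m₁ : ℝ} (w : V n) (hm : 0 < m) (hm₁ : 0 < m + sg c e w * m₁) :
    (fm m m₁ c e w).PosDef := by
  refine Matrix.posDef_iff_dotProduct_mulVec.2 ⟨?_, fun x hx => ?_⟩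
  · ext a b
    simp only [Matrix.conjTranspose_apply, fm, Matrix.of_apply, kap, RCLike.star_def, map_add, map_mul,
      map_sub, map_div₀, map_pow, Complex.conj_ofReal, Complex.conj_conj, apply_ite conj, map_one,
      map_zero, eq_comm (a := b)]
    ring
  · rw [ma_form, Complex.zero_lt_real]
    have h1 := kq_pos w (star_ne_zero.2 hx)
    have h2 := eta_le h w (star x)
    have h3 : 0 ≤ ‖∑ a, eta c e w a * star x a‖ ^ 2 / BB w := div_nonneg (sq_nonneg _) (BB_pos w).le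
    rcases le_total 0 m₁ with h4 | h4
    · nlinarith [mul_pos hm h1, mul_nonneg h4 h3]
    · nlinarith [mul_pos hm₁ h1, mul_le_mul_of_nonpos_left h2 h4]

theorem mb_norm (w : V n) : ∑ a, conj (w a) * w a = ((‖w‖ ^ 2 : ℝ) : ℂ) := by
  rw [EuclideanSpace.norm_sq_eq]
  push_cast
  exact Finset.sum_congr rfl fun a _ => Complex.conj_mul' _

theorem mb_rk_one (w : V n) : rk 1 0 w = 1 := by
  ext a b
  simp [rk, Matrix.one_apply]

theorem sg_zero (w : V n) : sg 1 0 w = ‖w‖ ^ 2 / BB w := by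
  have h := (BB_pos w).ne'
  simp only [sg, ell, Pi.zero_apply, zero_mul, Finset.sum_const_zero, add_zero, norm_one]
  field_simp
  simp [BB]

theorem fm_zero (m m₁ : ℝ) (w : V n) : fm m m₁ 1 0 w = rk (m / BB w) (m₁ / BB w ^ 3 - m / BB w ^ 2) w := by
  have h : (BB w : ℂ) ≠ 0 := by exact_mod_cast (BB_pos w).ne'
  ext a b
  simp only [fm, rk, kap, eta, ell, Matrix.of_apply, Pi.zero_apply, zero_mul, Finset.sum_const_zero, add_zero,
    zero_sub, one_mul, map_neg, map_div₀, Complex.conj_conj, Complex.conj_ofReal]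
  push_cast
  field_simp
  ring

theorem rk_mul (α β α' β' : ℝ) (w : V n) :
    rk α β w * rk α' β' w = rk (α * α') (α * β' + β * α' + β * β' * ‖w‖ ^ 2) w := by
  ext a b
  have e : ∀ k, rk α β w a k * rk α' β' w k b =
      (if a = k then (α * (α' * (if k = b then 1 else 0) + β' * (conj (w k) * w b)) : ℂ) else 0) +
      (if k = b then (β * α' * (conj (w a) * w k) : ℂ) else 0) +
      β * β' * (conj (w a) * w b) * (conj (w k) * w k) := by
    intro k
    simp only [rk, Matrix.of_apply]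
    split_ifs <;> ring
  rw [Matrix.mul_apply, Finset.sum_congr rfl fun k _ => e k, Finset.sum_add_distrib, Finset.sum_add_distrib,
    Finset.sum_ite_eq, Finset.sum_ite_eq', ← Finset.mul_sum, mb_norm]
  simp only [rk, Matrix.of_apply, Finset.mem_univ, if_true]
  push_cast
  ring

theorem trace_rk (α β : ℝ) (w : V n) : (rk α β w).trace = ((n * α + β * ‖w‖ ^ 2 : ℝ) : ℂ) := by
  simp only [Matrix.trace, Matrix.diag_apply, rk, Matrix.of_apply, if_true]
  rw [Finset.sum_add_distrib, ← Finset.mul_sum, ← Finset.mul_sum, mb_norm]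
  simp only [Finset.sum_const, Finset.card_univ, Fintype.card_fin, nsmul_eq_mul]
  push_cast
  ring

/-- `rk α β w = α • (1 + replicateCol _ u * replicateRow _ v)`, `Matrix.det_smul`,
`Matrix.det_one_add_replicateCol_mul_replicateRow` -/
theorem det_rk {α : ℝ} (hα : α ≠ 0) (β : ℝ) (w : V (n + 1)) :
    (rk α β w).det = ((α ^ n * (α + β * ‖w‖ ^ 2) : ℝ) : ℂ) := by
  have hα' : (α : ℂ) ≠ 0 := by exact_mod_cast hα
  have e : rk α β w = (α : ℂ) • (1 + Matrix.replicateCol Unit (fun a => (β / α : ℂ) * conj (w a)) *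
      Matrix.replicateRow Unit (fun a => w a)) := by
    ext a b
    simp only [rk, Matrix.of_apply, Matrix.smul_apply, Matrix.add_apply, Matrix.one_apply, Matrix.mul_apply,
      Matrix.replicateCol_apply, Matrix.replicateRow_apply, Finset.univ_unique, Finset.sum_singleton, smul_eq_mul]
    field_simp
  have e2 : (fun a => w a) ⬝ᵥ (fun a => (β / α : ℂ) * conj (w a)) = (β / α : ℂ) * ((‖w‖ ^ 2 : ℝ) : ℂ) := by
    rw [← mb_norm, Finset.mul_sum]
    exact Finset.sum_congr rfl fun a _ => by ring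
  rw [e, Matrix.det_smul, Matrix.det_one_add_replicateCol_mul_replicateRow, e2, Fintype.card_fin]
  push_cast
  field_simp
  ring

/-- the inverse is `rk α⁻¹ (-β / (α (α + β ‖w‖²))) w` (`Matrix.inv_eq_left_inv`, `rk 1 0 w = 1`); the double sum is
the trace of the product -/
theorem trace_inv_rk {α β : ℝ} (α' β' : ℝ) (w : V (n + 1)) (hα : α ≠ 0) (hβ : α + β * ‖w‖ ^ 2 ≠ 0) :
    ∑ a, ∑ b, (rk α β w)⁻¹ b a * rk α' β' w a b =
      ((n * (α' / α) + (α' + β' * ‖w‖ ^ 2) / (α + β * ‖w‖ ^ 2) : ℝ) : ℂ) := by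
  have hinv : (rk α β w)⁻¹ = rk α⁻¹ (-β / (α * (α + β * ‖w‖ ^ 2))) w := by
    refine Matrix.inv_eq_left_inv ?_
    rw [rk_mul, ← mb_rk_one w]
    congr 1
    · field_simp
    · field_simp
      ring
  have htr : ∑ a, ∑ b, (rk α β w)⁻¹ b a * rk α' β' w a b = ((rk α β w)⁻¹ * rk α' β' w).trace := by
    rw [Finset.sum_comm]
    rfl
  rw [htr, hinv, rk_mul, trace_rk]
  congr 1
  push_cast
  field_simp
  ring

end Crest.Agent.R213.G
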