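import Crest.Agent.R213.G.Wirt
import Crest.Agent.R213.G.Mat

/-! Row 213, block G: positivity and scalar curvature of an invariant potential. -/

set_option autoImplicit false
open Set Filter Topology
open scoped ContDiff ComplexConjugate ComplexOrder

noncomputable section
namespace Crest.Agent.R213.G

open Crest.GeometryTopology.ProjKahler

variable {n : ℕ} {c : ℂ} {e : Fin n → ℂ}

/-- `cHess_pot`, `posDef_fm`, `evr_D_X_mul` -/
theorem posDef_pot (h : Un c e) {H : SF} (hm : ∀ x ∈ I01, 0 < evr x (MM 1 H))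
    (hp : ∀ x ∈ I01, 0 < evr x (D (X * MM 1 H))) (z : V n) : (cHess (pot 1 H c e) z).PosDef := by
  rw [cHess_pot h]
  refine posDef_fm h z (hm _ (sg_mem h z)) ?_
  rw [← evr_D_X_mul _ (sg_mem h z)]
  exact hp _ (sg_mem h z)

/-- `m / B + (m₁ / B³ - m / B²) ‖w‖² = (m + σ m₁) / B²` -/
theorem rk_coef (m m₁ : ℝ) (w : V n) :
    m / BB w + (m₁ / BB w ^ 3 - m / BB w ^ 2) * ‖w‖ ^ 2 = (m + sg 1 0 w * m₁) / BB w ^ 2 := by
  have hB := (BB_pos w).ne'
  have e : ‖w‖ ^ 2 = BB w - 1 := by simp [BB]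
  rw [sg_zero, e]
  field_simp
  ring

/-- `cHess_pot`, `fm_zero`, `det_rk` with `n = 9`: the determinant is `m⁹ p / B¹¹`; `fsPot w = log (BB w)` is `rfl` -/
theorem log_det {H L : SF} (hm : ∀ x ∈ I01, 0 < evr x (MM 1 H)) (hp : ∀ x ∈ I01, 0 < evr x (D (X * MM 1 H)))
    (hL : ∀ x ∈ I01, evr x L = 9 * Real.log (evr x (MM 1 H)) + Real.log (evr x (D (X * MM 1 H)))) :
    (fun w : V 10 => Real.log ((cHess (pot 1 H 1 0) w).det.re)) = pot (-11) L 1 0 := by
  funext w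
  have hs := sg_mem (un_zero (n := 10)) w
  have h1 := hm _ hs
  have h2 := hp _ hs
  have hB := BB_pos w
  have h3 := det_rk (n := 9) (div_pos h1 hB).ne'
    (evr (sg 1 0 w) (D (MM 1 H)) / BB w ^ 3 - evr (sg 1 0 w) (MM 1 H) / BB w ^ 2) w
  rw [cHess_pot un_zero, fm_zero, h3, Complex.ofReal_re, rk_coef, ← evr_D_X_mul _ hs, pot, hL _ hs,
    Real.log_mul (by positivity) (by positivity), Real.log_pow, Real.log_div h1.ne' hB.ne',
    Real.log_div h2.ne' (by positivity), Real.log_pow, show fsPot w = Real.log (BB w) from rfl]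
  push_cast
  ring

/-- `log_det`, `cHess_pot` twice, `fm_zero`, `trace_inv_rk` with `n = 9`, `rk_coef` -/
theorem scal_pot {H L : SF} (hm : ∀ x ∈ I01, 0 < evr x (MM 1 H)) (hp : ∀ x ∈ I01, 0 < evr x (D (X * MM 1 H)))
    (hL : ∀ x ∈ I01, evr x L = 9 * Real.log (evr x (MM 1 H)) + Real.log (evr x (D (X * MM 1 H)))) (z : V 10) :
    scalarCurv (pot 1 H 1 0) z = -(9 * (evr (sg 1 0 z) (MM (-11) L) / evr (sg 1 0 z) (MM 1 H)) +
      evr (sg 1 0 z) (D (X * MM (-11) L)) / evr (sg 1 0 z) (D (X * MM 1 H))) := by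
  have hs := sg_mem (un_zero (n := 10)) z
  have h1 := hm _ hs
  have h2 := hp _ hs
  have hB := BB_pos z
  have h3 := trace_inv_rk (n := 9) (α := evr (sg 1 0 z) (MM 1 H) / BB z)
    (β := evr (sg 1 0 z) (D (MM 1 H)) / BB z ^ 3 - evr (sg 1 0 z) (MM 1 H) / BB z ^ 2)
    (evr (sg 1 0 z) (MM (-11) L) / BB z)
    (evr (sg 1 0 z) (D (MM (-11) L)) / BB z ^ 3 - evr (sg 1 0 z) (MM (-11) L) / BB z ^ 2) z
    (div_pos h1 hB).ne' (by rw [rk_coef, ← evr_D_X_mul _ hs]; positivity)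
  rw [scalarCurv, log_det hm hp hL, cHess_pot un_zero, cHess_pot un_zero, fm_zero, fm_zero, h3, Complex.ofReal_re,
    rk_coef, rk_coef, ← evr_D_X_mul _ hs, ← evr_D_X_mul _ hs]
  push_cast
  field_simp

/-- `1 + ‖transition k w‖² = (1 + ‖w‖²) / ‖w k‖²` (`EuclideanSpace.norm_sq_eq`, `Finset.add_sum_erase`) -/
theorem sg_transition (k : Fin n) {w : V n} (hw : w k ≠ 0) :
    sg 0 (Pi.single k 1) w = sg 1 0 (transition k w) := by
  have hk : 0 < ‖w k‖ := norm_pos_iff.2 hw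
  have e1 : ell 0 (Pi.single k 1) w = w k := by simp [ell, Pi.single_apply]
  have e2 : BB (transition k w) = BB w / ‖w k‖ ^ 2 := by
    simp only [BB, EuclideanSpace.norm_sq_eq]
    rw [← Finset.add_sum_erase _ _ (Finset.mem_univ k), ← Finset.add_sum_erase _ _ (Finset.mem_univ k)]
    have e3 : ∑ j ∈ Finset.univ.erase k, ‖transition k w j‖ ^ 2 =
        (∑ j ∈ Finset.univ.erase k, ‖w j‖ ^ 2) / ‖w k‖ ^ 2 := by
      rw [Finset.sum_div]
      refine Finset.sum_congr rfl fun j hj => ?_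
      simp [transition, Finset.ne_of_mem_erase hj, div_pow]
    have e4 : ‖transition k w k‖ = ‖w k‖⁻¹ := by simp [transition]
    rw [e3, e4]
    field_simp
    ring
  have hB := (BB_pos w).ne'
  rw [sg, sg, e1, e2]
  simp [ell]

theorem sg_unitary (U : V n ≃ₗᵢ[ℂ] V n) (z : V n) : sg 1 0 (U z) = sg 1 0 z := by
  simp [sg_zero, BB]

end Crest.Agent.R213.G
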