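import Crest.Agent.R213.G.Fam
import Crest.Agent.R213.G.Scal

/-! Row 213, block G: `StG`. -/

set_option autoImplicit false
open Set Filter Topology
open scoped ContDiff ComplexConjugate ComplexOrder

noncomputable section
namespace Crest.Agent.R213

open Crest.GeometryTopology.ProjKahler

namespace G

variable {T t : ℝ} {Γ : ℝ → SF} {H ξ : ℝ × ℝ → ℝ}

theorem Fam.posDef (hF : Fam T Γ H ξ) (ht : t ∈ Ico 0 T) {n : ℕ} {c : ℂ} {e : Fin n → ℂ} (h : Un c e)
    (z : V n) : (cHess (fun u => fsPot u + H (t, sg c e u)) z).PosDef := by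
  obtain ⟨g, ξ', H', hP, hH⟩ := hF.prof t ht
  have e1 : (fun u => fsPot u + H (t, sg c e u)) = pot 1 H' c e := funext fun u => by
    rw [pot, one_mul, (hH _ (sg_mem h u)).1]
  rw [e1]
  refine posDef_pot h (fun x hx => hP.m_pos hx) (fun x hx => ?_) z
  rw [hP.X_mul]
  exact hP.p_pos hx

theorem Fam.scal (hF : Fam T Γ H ξ) (ht : t ∈ Ico 0 T) (z : V 10) :
    scalarCurv (fun u => fsPot u + H (t, sg 1 0 u)) z = 110 + evr (ξ (t, sg 1 0 z)) (Aop 0 (Γ t)) := by
  obtain ⟨g, ξ', H', hP, hH⟩ := hF.prof t ht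
  have e1 : (fun u : V 10 => fsPot u + H (t, sg 1 0 u)) = pot 1 H' 1 0 := funext fun u => by
    rw [pot, one_mul, (hH _ (sg_mem un_zero u)).1]
  obtain ⟨L, hL, hc⟩ := hP.curv
  rw [e1, scal_pot (fun x hx => hP.m_pos hx) (fun x hx => by rw [hP.X_mul]; exact hP.p_pos hx) hL,
    hc _ (sg_mem un_zero z), (hH _ (sg_mem un_zero z)).2]

theorem Fam.xi_zero (hF : Fam T Γ H ξ) (ht : t ∈ Ico 0 T) : ξ (t, 0) = 0 := by
  obtain ⟨g, ξ', H', hP, hH⟩ := hF.prof t ht
  rw [← (hH 0 ⟨le_rfl, zero_le_one⟩).2, hP.xi_zero]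

theorem Fam.joint (hF : Fam T Γ H ξ) {n : ℕ} {c : ℂ} {e : Fin n → ℂ} (h : Un c e) :
    ContDiffOn ℝ ∞ (fun p : ℝ × V n => H (p.1, sg c e p.2)) (Ico 0 T ×ˢ univ) :=
  hF.smooth.comp (contDiffOn_fst.prodMk ((contDiff_sg c e).comp contDiff_snd).contDiffOn)
    fun p hp => ⟨hp.1, sg_mem h p.2⟩

theorem Fam.slice (hF : Fam T Γ H ξ) (ht : t ∈ Ico 0 T) {n : ℕ} {c : ℂ} {e : Fin n → ℂ} (h : Un c e) :
    ContDiff ℝ ∞ fun z : V n => H (t, sg c e z) :=
  hF.smooth.comp_contDiff (contDiff_const.prodMk (contDiff_sg c e)) fun z => ⟨ht, sg_mem h z⟩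

end G

open G in
theorem stG : StG := by
  rintro ⟨T, Γ, a0, hT, hsol, ha, ha0, hlim⟩
  obtain ⟨H, ξ, hF⟩ := exists_fam hT hsol ha
  refine ⟨T, hT, fun t => ⟨fun z => H (t, sg 1 0 z), fun k w => H (t, sg 0 (Pi.single k 1) w),
    fun k w hw => by rw [sg_transition k hw]⟩, ⟨fun t ht => ⟨hF.slice ht un_zero,
      fun k => hF.slice ht (un_single k), hF.posDef ht un_zero, fun k => hF.posDef ht (un_single k)⟩,
    hF.joint un_zero, fun k => hF.joint (un_single k), fun t ht z => ?_⟩,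
    fun U z => by simp only [sg_unitary], 0, 110 * a0, by positivity, ?_⟩
  · have h1 := hF.scal (Ioo_subset_Ico_self ht) z
    have h2 := (hF.time t ht _ (sg_mem un_zero z)).deriv
    simp only
    rw [h1, h2]
    norm_num
  · have h0 : sg 1 0 (0 : V 10) = 0 := by simp [sg_zero]
    have h1 : Tendsto (fun t => √(T - t)) (𝓝[Iio T] T) (𝓝 0) := by
      have : Continuous fun t => √(T - t) := by fun_prop
      simpa using (this.tendsto T).mono_left (nhdsWithin_le_nhds (s := Iio T))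
    have h2 := (h1.const_mul 110).add (hlim.const_mul 110)
    rw [mul_zero, zero_add] at h2
    refine h2.congr' ?_
    filter_upwards [Ico_mem_nhdsLT hT] with t ht
    rw [hF.scal ht, h0, hF.xi_zero ht, evr_Aop_zero]
    ring

end Crest.Agent.R213
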