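import Crest.Agent.R213.Jet
import Crest.Agent.R213.G.Alg

/-! Row 213, block G: the symplectic potential `g`. -/

set_option autoImplicit false
open Set Filter Topology
open scoped ContDiff ComplexConjugate

noncomputable section
namespace Crest.Agent.R213.G

open Crest.GeometryTopology.ProjKahler

theorem po_nhds {T t b : ℝ} (htb : t < b) : Icc 0 b ∈ 𝓝[Ico 0 T] t :=
  mem_of_superset (inter_mem_nhdsWithin (Ico 0 T) (Iio_mem_nhds htb)) fun _ h => ⟨h.1.1, h.2.le⟩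

/-- with `u' τ = u (max 0 τ)`, continuous on the open set `Iio T`: `intervalIntegral.integral_hasDerivAt_right` -/
theorem hasDeriv_time {T : ℝ} {u : ℝ → CC} (hu : ContinuousOn u (Ico 0 T)) {t : ℝ} (ht : t ∈ Ico 0 T) :
    HasDerivWithinAt (fun τ => ∫ s in (0 : ℝ)..τ, u s) (u t) (Ico 0 T) t := by
  obtain ⟨b, htb, hbT⟩ := exists_between ht.2
  have hb : (0 : ℝ) ≤ b := ht.1.trans htb.le
  have hsub : Icc 0 b ⊆ Ico 0 T := Icc_subset_Ico_right hbT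
  have hc : Continuous fun τ => u (projIcc 0 b hb τ) :=
    (hu.mono hsub).comp_continuous (continuous_subtype_val.comp continuous_projIcc)
      fun τ => (projIcc 0 b hb τ).2
  have h1 := (hc.integral_hasStrictDerivAt 0 t).hasDerivAt.hasDerivWithinAt (s := Icc 0 b)
  rw [projIcc_of_mem hb ⟨ht.1, htb.le⟩] at h1
  have h2 : ∀ τ ∈ Icc 0 b, ∫ s in (0 : ℝ)..τ, u s = ∫ s in (0 : ℝ)..τ, u (projIcc 0 b hb s) :=
    fun τ hτ => intervalIntegral.integral_congr fun s hs => by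
      rw [uIcc_of_le hτ.1] at hs
      simp only [projIcc_of_mem hb ⟨hs.1, hs.2.trans hτ.2⟩]
  exact (h1.congr h2 (h2 t ⟨ht.1, htb.le⟩)).mono_of_mem_nhdsWithin (po_nhds htb)

/-- jets `Dn i g₀ + ∫ s in 0..τ, Dn i (U s)`, `exists_SF_of_jets`; copy the proof of `exists_primitive` (`R213/Jet.lean`):
the identity `integral_D` passes through the time integral (`jd_L`, `ContinuousLinearMap.intervalIntegral_comp_comm`) -/
theorem exists_primT {T : ℝ} {U : ℝ → SF} (hT : 0 < T) (hU : JC U (Ico 0 T)) (g₀ : SF) :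
    ∃ G : ℝ → SF, G 0 = g₀ ∧ ∀ t ∈ Ico 0 T, JD G (U t) (Ico 0 T) t := by
  classical
  have key : ∀ b ∈ Ico 0 T, ∃ V : ℝ → SF, V 0 = 0 ∧ (∀ t ∈ Icc 0 b, JD V (U t) (Icc 0 b) t) ∧
      ∀ t ∈ Icc 0 b, (V t : CC) = ∫ τ in (0 : ℝ)..t, (U τ : CC) := fun b hb =>
    exists_primitive hb.1 (hU.mono (Icc_subset_Ico_right hb.2))
  choose! V h0 hV hI using key
  refine ⟨fun τ => g₀ + V τ τ, by simp only [h0 0 ⟨le_rfl, hT⟩, add_zero], fun t ht => ?_⟩
  obtain ⟨b, htb, hbT⟩ := exists_between ht.2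
  have hb : b ∈ Ico 0 T := ⟨ht.1.trans htb.le, hbT⟩
  have e : ∀ τ ∈ Icc 0 b, g₀ + V τ τ = g₀ + V b τ := fun τ hτ => by
    rw [Subtype.ext ((hI τ ⟨hτ.1, hτ.2.trans_lt hbT⟩ τ ⟨hτ.1, le_rfl⟩).trans (hI b hb τ hτ).symm)]
  have h1 := (JD.const (s := Icc 0 b) (t := t) g₀).add (hV b hb t ⟨ht.1, htb.le⟩)
  rw [zero_add] at h1
  exact (h1.congr e (e t ⟨ht.1, htb.le⟩)).mono_nhds (po_nhds htb)

theorem hasDeriv_evr_time {G : ℝ → SF} {U : SF} {s : Set ℝ} {t : ℝ} (h : JD G U s t) (i : ℕ) (x : ℝ) :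
    HasDerivWithinAt (fun τ => evr x (Dn i (G τ))) (evr x (Dn i U)) s t := by
  exact (h.Dn i).hasDeriv_ev _

/-- `g₀'' = Γ 0 / (1 - q Γ 0)` (`exists_inv`, `exists_primX` twice), `exists_primT` with `Sol.jc`, `JC.Aop`, `JC.neg`.
For fixed `x` the function `t ↦ evr x (Dn 2 (g t)) - γ t / (1 - q γ t)`, `γ t = evr x (Γ t)`, has derivative `0` within
`Ico 0 T` and vanishes at `0` (`constant_of_has_deriv_right_zero` on `Icc 0 t`, or `Convex.is_const_of_fderivWithin_eq_zero`). -/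
theorem exists_pot {T : ℝ} {Γ : ℝ → SF} (hT : 0 < T) (h : Sol flow Γ (Ico 0 T))
    (ha : ∀ t ∈ Ico 0 T, ∀ x, 0 < ev x (1 - q * Γ t)) : ∃ g : ℝ → SF,
    (∀ t ∈ Ico 0 T, JD g (-Aop 0 (Γ t)) (Ico 0 T) t) ∧
      ∀ t ∈ Ico 0 T, (1 - q * Γ t) * D (D (g t)) = Γ t := by
  have h0 : (0 : ℝ) ∈ Ico 0 T := ⟨le_rfl, hT⟩
  obtain ⟨u, hu⟩ := exists_inv (f := 1 - q * Γ 0) fun x hx => by
    rw [evr_of_mem hx]; exact (ha 0 h0 _).ne'
  obtain ⟨g₁, hg₁⟩ := exists_primX (u * Γ 0)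
  obtain ⟨g₀, hg₀⟩ := exists_primX g₁
  obtain ⟨g, hg0, hg⟩ := exists_primT hT (h.jc.Aop 0).neg g₀
  refine ⟨g, hg, fun t ht => SF.ext' fun x => ?_⟩
  have hd : ∀ s ∈ Ico 0 T, HasDerivWithinAt
      (fun τ => ev x (Dn 2 (g τ)) - ev x (Γ τ) / ev x (1 - q * Γ τ)) 0 (Ico 0 T) s := by
    intro s hs
    have h1 := ((hg s hs).Dn 2).hasDeriv_ev x
    have h2 := (h s hs).hasDeriv_ev x
    have h3 := ((JD.const 1).sub ((h s hs).const_mul q)).hasDeriv_ev x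
    have hne := (ha s hs x).ne'
    refine (h1.sub (h2.div h3 hne)).congr_deriv ?_
    rw [map_neg, ← Bop_apply]
    simp only [flow, map_neg, map_sub, map_mul, map_pow, map_zero, map_one] at hne ⊢
    field_simp
    ring
  have hc := (convex_Ico 0 T).is_const_of_fderivWithin_eq_zero (𝕜 := ℝ)
    (fun s hs => (hd s hs).differentiableWithinAt)
    (fun s hs => by
      rw [(hd s hs).hasFDerivWithinAt.fderivWithin (uniqueDiffOn_Ico 0 T s hs)]
      simp) ht h0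
  have e2 : ∀ f : SF, Dn 2 f = D (D f) := fun f => by rw [Dn_succ, Dn_one]
  have e3 : ev x (D (D (g 0))) = ev x (Γ 0) / ev x (1 - q * Γ 0) := by
    rw [hg0, hg₀, hg₁, eq_div_iff (ha 0 h0 x).ne', ← map_mul, mul_right_comm, mul_comm u, hu, one_mul]
  simp only [e2] at hc
  rw [e3, sub_self, sub_eq_zero] at hc
  rw [map_mul, hc, mul_div_cancel₀ _ (ha t ht x).ne']

end Crest.Agent.R213.G
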