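import Crest.Agent.R213.G.Defs
import Crest.Agent.R245.Wirt

/-! Row 213, block G: the complex Hessian of an invariant potential.
The Wirtinger calculus is in `R245/Wirt.lean` (`R245.W_add`, `W_sub`, `W_mul`, `W_sum`, `W_const_mul`, `W_comp_hol`,
`D_hol`, `Db_hol`, `D_antihol`, `Db_antihol`); do not `open` R245 (clash of `D`). -/

set_option autoImplicit false
open Set Filter Topology
open scoped ContDiff ComplexConjugate

noncomputable section
namespace Crest.Agent.R213.G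

open Crest.GeometryTopology.ProjKahler

open Crest.Agent.R245 (W)

variable {n : ℕ} {c : ℂ} {e : Fin n → ℂ}

theorem dz_eq (f : V n → ℂ) (z : V n) (a : Fin n) : dz f z a = W (-1) (bv a) f z := by
  simp only [dz, W]
  push_cast
  ring

theorem dzbar_eq (f : V n → ℂ) (z : V n) (a : Fin n) : dzbar f z a = W 1 (bv a) f z := by
  simp only [dzbar, W]
  push_cast
  ring

/-- chain rule for an outer function that is differentiable within a set containing the range
(`HasDerivWithinAt.comp_hasFDerivAt`-type lemma or `HasFDerivWithinAt.comp` on `univ`; `R245.wirt_fderiv_cx`) -/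
theorem W_comp_within {I : Set ℝ} {M : ℝ → ℝ} {M' : ℝ} {u : V n → ℝ} {p : V n} (hI : ∀ z, u z ∈ I)
    (hM : HasDerivWithinAt M M' I (u p)) (hu : DifferentiableAt ℝ u p) (s : ℝ) (ξ : V n) :
    DifferentiableAt ℝ (fun z => (M (u z) : ℂ)) p ∧
      W s ξ (fun z => (M (u z) : ℂ)) p = M' * W s ξ (fun z => (u z : ℂ)) p := by
  have h : HasFDerivAt (fun z => M (u z)) (M' • fderiv ℝ u p) p :=
    hasFDerivWithinAt_univ.1 (hM.comp_hasFDerivWithinAt p hu.hasFDerivAt.hasFDerivWithinAt fun z _ => hI z)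
  have h' : ∀ v, fderiv ℝ (fun q => M (u q)) p v = M' * fderiv ℝ u p v := fun v => by
    rw [h.fderiv]
    simp
  have hd := h.differentiableAt
  refine ⟨Complex.ofRealCLM.differentiableAt.comp p hd, ?_⟩
  have e1 := R245.wirt_fderiv_cx hd
  have e2 := R245.wirt_fderiv_cx hu
  unfold R245.cx at e1 e2
  simp only [W, e1, e2, h']
  push_cast
  ring

theorem BB_cast (w : V n) : (BB w : ℂ) = 1 + ∑ a, w a * conj (w a) := by
  simp only [BB, EuclideanSpace.norm_sq_eq, Complex.mul_conj, Complex.normSq_eq_norm_sq]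
  push_cast
  rfl

theorem contDiff_BB : ContDiff ℝ ∞ (BB : V n → ℝ) := by
  exact contDiff_const.add (contDiff_norm_sq ℂ)

theorem wa_coord (b : Fin n) : ContDiff ℝ ∞ fun w : V n => w b :=
  ((EuclideanSpace.proj (𝕜 := ℂ) b).restrictScalars ℝ).contDiff

theorem contDiff_ell (c : ℂ) (e : Fin n → ℂ) : ContDiff ℝ ∞ (ell c e) := by
  exact contDiff_const.add (ContDiff.sum fun a _ => contDiff_const.mul (wa_coord a))

theorem contDiff_sg (c : ℂ) (e : Fin n → ℂ) : ContDiff ℝ ∞ (sg c e) := by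
  exact contDiff_const.sub (((contDiff_ell c e).norm_sq ℂ).div contDiff_BB fun w => (BB_pos w).ne')

theorem contDiff_fs : ContDiff ℝ ∞ (fsPot : V n → ℝ) := by
  exact contDiff_BB.log fun w => (BB_pos w).ne'

/-- Cauchy–Schwarz: `‖ell‖ ≤ ‖c‖ · 1 + ∑ ‖e a‖ ‖w a‖` (`Finset.sum_mul_sq_le_sq_mul_sq` on `Option (Fin n)`, or twice) -/
theorem sg_mem (h : Un c e) (w : V n) : sg c e w ∈ I01 := by
  have hB := BB_pos w
  refine ⟨sub_nonneg.2 ((div_le_one hB).2 ?_), sub_le_self _ (by positivity)⟩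
  have h1 : ‖ell c e w‖ ≤ ∑ o : Option (Fin n), o.elim ‖c‖ (fun a => ‖e a‖) * o.elim 1 fun a => ‖w a‖ := by
    rw [Fintype.sum_option]
    simp only [Option.elim_none, Option.elim_some, mul_one]
    refine (norm_add_le _ _).trans (add_le_add_right ((norm_sum_le _ _).trans_eq ?_) _)
    simp only [norm_mul]
  refine (pow_le_pow_left₀ (norm_nonneg _) h1 2).trans ((Finset.sum_mul_sq_le_sq_mul_sq _ _ _).trans_eq ?_)
  rw [Fintype.sum_option, Fintype.sum_option]
  simp only [Option.elim_none, Option.elim_some]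
  rw [h, one_mul, one_pow, BB, EuclideanSpace.norm_sq_eq]

theorem wa_has (z : V n) (b : Fin n) :
    HasFDerivAt (fun w : V n => w b) (EuclideanSpace.proj (𝕜 := ℂ) b) z :=
  (EuclideanSpace.proj (𝕜 := ℂ) b).hasFDerivAt

theorem wa_bv (a b : Fin n) : (EuclideanSpace.proj (𝕜 := ℂ) b) (bv a) = if a = b then 1 else 0 := by
  simp [bv, eq_comm]

theorem wa_d {f : V n → ℂ} (h : ContDiff ℝ ∞ f) (z : V n) : DifferentiableAt ℝ f z :=
  h.differentiable (by simp) z

theorem wa_conj {f : V n → ℂ} (h : ContDiff ℝ ∞ f) : ContDiff ℝ ∞ fun w => conj (f w) :=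
  Complex.conjCLE.contDiff.comp h

theorem wa_real {f : V n → ℝ} (h : ContDiff ℝ ∞ f) : ContDiff ℝ ∞ fun w => (f w : ℂ) :=
  Complex.ofRealCLM.contDiff.comp h

theorem dz_coord (z : V n) (a b : Fin n) : W (-1) (bv a) (fun w : V n => w b) z = if a = b then 1 else 0 := by
  exact (R245.D_hol (wa_has z b)).trans (wa_bv a b)

theorem dzbar_coord (z : V n) (a b : Fin n) : W 1 (bv a) (fun w : V n => w b) z = 0 := by
  exact R245.Db_hol (wa_has z b)

theorem wa_BB (s : ℝ) (ξ z : V n) : W s ξ (fun w : V n => (BB w : ℂ)) z =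
    ∑ b, (W s ξ (fun w : V n => w b) z * conj (z b) + z b * conj (W (-s) ξ (fun w : V n => w b) z)) := by
  have hd : ∀ b, DifferentiableAt ℝ (fun w : V n => w b * conj (w b)) z := fun b =>
    wa_d ((wa_coord b).mul (wa_conj (wa_coord b))) z
  simp only [BB_cast]
  rw [R245.W_add (differentiableAt_const _) (DifferentiableAt.fun_sum fun b _ => hd b), R245.W_const, zero_add,
    R245.W_sum fun b _ => hd b]
  refine Finset.sum_congr rfl fun b _ => ?_
  rw [R245.W_mul (wa_d (wa_coord b) z) (wa_d (wa_conj (wa_coord b)) z), R245.W_conj]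

theorem dz_BB (z : V n) (a : Fin n) : W (-1) (bv a) (fun w : V n => (BB w : ℂ)) z = conj (z a) := by
  simp [wa_BB, dz_coord, dzbar_coord]

theorem dzbar_BB (z : V n) (a : Fin n) : W 1 (bv a) (fun w : V n => (BB w : ℂ)) z = z a := by
  simp [wa_BB, dz_coord, dzbar_coord, apply_ite]

theorem wa_ell (c : ℂ) (e : Fin n → ℂ) (s : ℝ) (ξ z : V n) :
    W s ξ (ell c e) z = ∑ b, e b * W s ξ (fun w : V n => w b) z := by
  have hd : ∀ b, DifferentiableAt ℝ (fun w : V n => e b * w b) z := fun b =>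
    wa_d (contDiff_const.mul (wa_coord b)) z
  unfold ell
  rw [R245.W_add (differentiableAt_const _) (DifferentiableAt.fun_sum fun b _ => hd b), R245.W_const, zero_add,
    R245.W_sum fun b _ => hd b]
  exact Finset.sum_congr rfl fun b _ => R245.W_const_mul _ (wa_d (wa_coord b) z)

theorem dz_ell (c : ℂ) (e : Fin n → ℂ) (z : V n) (a : Fin n) : W (-1) (bv a) (ell c e) z = e a := by
  simp [wa_ell, dz_coord]

theorem dzbar_ell (c : ℂ) (e : Fin n → ℂ) (z : V n) (a : Fin n) : W 1 (bv a) (ell c e) z = 0 := by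
  simp [wa_ell, dzbar_coord]

theorem wb_ne (w : V n) : (BB w : ℂ) ≠ 0 := Complex.ofReal_ne_zero.2 (BB_pos w).ne'

theorem wb_inv : ContDiff ℝ ∞ fun w : V n => (BB w : ℂ)⁻¹ := (wa_real contDiff_BB).inv wb_ne

/-- `W_comp_hol` with `G = (·)⁻¹` -/
theorem W_inv_BB (s : ℝ) (ξ z : V n) : W s ξ (fun w : V n => (BB w : ℂ)⁻¹) z =
    -W s ξ (fun w : V n => (BB w : ℂ)) z / (BB z : ℂ) ^ 2 := by
  rw [R245.W_comp_hol (G := fun x => x⁻¹) (f := fun w : V n => (BB w : ℂ)) (hasDerivAt_inv (wb_ne z))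
    (wa_d (wa_real contDiff_BB) z)]
  ring

theorem dzbar_fs (z : V n) (b : Fin n) : W 1 (bv b) (fun w : V n => (fsPot w : ℂ)) z = z b / BB z := by
  have h := (W_comp_within (I := univ) (u := BB) (fun _ => mem_univ _)
    (Real.hasDerivAt_log (BB_pos z).ne').hasDerivWithinAt (contDiff_BB.differentiable (by simp) z) 1 (bv b)).2
  rw [dzbar_BB] at h
  refine Eq.trans h ?_
  push_cast
  ring

theorem wb_sg (c : ℂ) (e : Fin n → ℂ) (w : V n) :
    (sg c e w : ℂ) = 1 - ell c e w * conj (ell c e w) * (BB w : ℂ)⁻¹ := by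
  rw [sg, Complex.mul_conj, Complex.normSq_eq_norm_sq]
  push_cast
  ring

theorem wb_W (c : ℂ) (e : Fin n → ℂ) (s : ℝ) (ξ z : V n) : W s ξ (fun w : V n => (sg c e w : ℂ)) z =
    -((W s ξ (ell c e) z * conj (ell c e z) + ell c e z * conj (W (-s) ξ (ell c e) z)) * (BB z : ℂ)⁻¹ +
      ell c e z * conj (ell c e z) * (-W s ξ (fun w : V n => (BB w : ℂ)) z / (BB z : ℂ) ^ 2)) := by
  have h1 := contDiff_ell c e
  simp only [wb_sg]
  rw [R245.W_sub (differentiableAt_const _) (wa_d ((h1.mul (wa_conj h1)).mul wb_inv) z), R245.W_const, zero_sub,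
    R245.W_mul (wa_d (h1.mul (wa_conj h1)) z) (wa_d wb_inv z), R245.W_mul (wa_d h1 z) (wa_d (wa_conj h1) z),
    R245.W_conj, W_inv_BB]

/-- `(sg : ℂ) = 1 - ell · conj ell · B⁻¹` -/
theorem dzbar_sg (c : ℂ) (e : Fin n → ℂ) (z : V n) (b : Fin n) :
    W 1 (bv b) (fun w : V n => (sg c e w : ℂ)) z = -(ell c e z * conj (eta c e z b) / BB z) := by
  rw [wb_W, dzbar_ell, dz_ell, dzbar_BB, eta]
  simp only [map_sub, map_div₀, map_mul, Complex.conj_conj, Complex.conj_ofReal]
  have := wb_ne z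
  field_simp
  ring

theorem dz_sg (c : ℂ) (e : Fin n → ℂ) (z : V n) (a : Fin n) :
    W (-1) (bv a) (fun w : V n => (sg c e w : ℂ)) z = -(conj (ell c e z) * eta c e z a / BB z) := by
  rw [wb_W, neg_neg, dzbar_ell, dz_ell, dz_BB, eta]
  have := wb_ne z
  simp only [map_zero]
  field_simp
  ring

theorem dz_fs1 (z : V n) (a b : Fin n) :
    DifferentiableAt ℝ (fun w : V n => w b / (BB w : ℂ)) z ∧
      W (-1) (bv a) (fun w : V n => w b / (BB w : ℂ)) z = kap z a b := by
  simp only [div_eq_mul_inv]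
  refine ⟨wa_d ((wa_coord b).mul wb_inv) z, ?_⟩
  rw [R245.W_mul (wa_d (wa_coord b) z) (wa_d wb_inv z), dz_coord, W_inv_BB, dz_BB, kap]
  ring

/-- `conj (eta w b) = conj (e b) - conj (ell w) · (w b / B)`, `∂ₐ (ell / B) = eta a / B`, `∂ₐ conj ell = 0`,
`ell · conj ell / B = 1 - sg` -/
theorem dz_sg1 (c : ℂ) (e : Fin n → ℂ) (z : V n) (a b : Fin n) :
    DifferentiableAt ℝ (fun w : V n => ell c e w * conj (eta c e w b) / (BB w : ℂ)) z ∧
      W (-1) (bv a) (fun w : V n => ell c e w * conj (eta c e w b) / (BB w : ℂ)) z =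
        eta c e z a * conj (eta c e z b) / BB z - (1 - sg c e z : ℝ) * kap z a b := by
  have h1 := contDiff_ell c e
  have h2 : ContDiff ℝ ∞ fun w : V n => w b / (BB w : ℂ) := by
    simpa only [div_eq_mul_inv] using (wa_coord b).mul wb_inv
  have e1 : (fun w : V n => ell c e w * conj (eta c e w b) / (BB w : ℂ)) = fun w =>
      ell c e w * (BB w : ℂ)⁻¹ * (conj (e b) - conj (ell c e w) * (w b / (BB w : ℂ))) := funext fun w => by
    simp only [eta, map_sub, map_div₀, map_mul, Complex.conj_conj, Complex.conj_ofReal]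
    ring
  have h3 := (wa_conj h1).mul h2
  have h4 : ContDiff ℝ ∞ fun w : V n => conj (e b) - conj (ell c e w) * (w b / (BB w : ℂ)) := contDiff_const.sub h3
  rw [e1]
  refine ⟨wa_d ((h1.mul wb_inv).mul h4) z, ?_⟩
  rw [R245.W_mul (wa_d (h1.mul wb_inv) z) (wa_d h4 z), R245.W_mul (wa_d h1 z) (wa_d wb_inv z),
    R245.W_sub (differentiableAt_const _) (wa_d h3 z), R245.W_const,
    R245.W_mul (wa_d (wa_conj h1) z) (wa_d h2 z), R245.W_conj, neg_neg, dzbar_ell, dz_ell, W_inv_BB, dz_BB,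
    (dz_fs1 z a b).2]
  push_cast
  rw [wb_sg]
  simp only [eta, map_sub, map_div₀, map_mul, Complex.conj_conj, Complex.conj_ofReal, map_zero]
  have := wb_ne z
  field_simp
  ring

/-- `∂̄_b pot = c₀ w_b / B - H'(σ) · ell conj(eta b) / B` at every point (`W_comp_within`, `hasDeriv_evr`, `sg_mem`),
then differentiate once more; `D (MM c₀ H) = -D H + (1 - X) D (D H)`. -/
theorem cHess_pot (h : Un c e) (c₀ : ℝ) (H : SF) (z : V n) :
    cHess (pot c₀ H c e) z = fm (evr (sg c e z) (MM c₀ H)) (evr (sg c e z) (D (MM c₀ H))) c e z := by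
  have hs : ∀ w, DifferentiableAt ℝ (sg c e) w := (contDiff_sg c e).differentiable (by simp)
  have ch : ∀ (f : SF) (w : V n) (s : ℝ) (ξ : V n),
      DifferentiableAt ℝ (fun u => (evr (sg c e u) f : ℂ)) w ∧ W s ξ (fun u => (evr (sg c e u) f : ℂ)) w =
        evr (sg c e w) (D f) * W s ξ (fun u => (sg c e u : ℂ)) w := fun f w s ξ =>
    W_comp_within (M := fun y => evr y f) (sg_mem h) (hasDeriv_evr f (sg_mem h w)) (hs w) s ξ
  ext a b
  have e1 : (fun w => dzbar (fun u => (pot c₀ H c e u : ℂ)) w b) = fun w => c₀ * (w b / (BB w : ℂ)) -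
      evr (sg c e w) (D H) * (ell c e w * conj (eta c e w b) / (BB w : ℂ)) := funext fun w => by
    have h1 := wa_d (wa_real (contDiff_fs (n := n))) w
    simp only [pot, Complex.ofReal_add, Complex.ofReal_mul]
    rw [dzbar_eq, R245.W_add (h1.const_mul _) (ch H w 1 (bv b)).1, R245.W_const_mul _ h1, dzbar_fs,
      (ch H w 1 (bv b)).2, dzbar_sg]
    ring
  have h2 := dz_fs1 z a b
  have h3 := dz_sg1 c e z a b
  have h4 := ch (D H) z (-1) (bv a)
  have h5 : evr (sg c e z) (D (MM c₀ H)) =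
      -evr (sg c e z) (D H) + (1 - sg c e z) * evr (sg c e z) (D (D H)) := by
    rw [MM, map_add, Derivation.map_algebraMap, D_mul, map_sub, D_X, Derivation.map_one_eq_zero]
    simp [evr_X (sg_mem h z)]
  rw [cHess, Matrix.of_apply, e1, dz_eq, R245.W_sub (h2.1.const_mul _) (h4.1.fun_mul h3.1), R245.W_const_mul _ h2.1,
    R245.W_mul h4.1 h3.1, h2.2, h3.2, h4.2, dz_sg, fm, Matrix.of_apply, evr_MM _ _ (sg_mem h z), h5]
  push_cast
  rw [wb_sg]
  have := wb_ne z
  field_simp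
  ring

end Crest.Agent.R213.G
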